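import Mathlib.Analysis.Calculus.MeanValue
import Mathlib.Analysis.Calculus.ContDiff.Operations
import Mathlib.Tactic.Positivity
import Mathlib.Tactic.Linarith
import Mathlib.Tactic.FieldSimp
import Mathlib.Tactic.Module

/-!
# P088: first and second differences in a frame
-/

open Set Filter
open scoped ContDiff Topology

noncomputable section

namespace Vale.Agent.P088.R2.H968.B

variable {ι F : Type*} [Fintype ι] [NormedAddCommGroup F] [NormedSpace ℝ F]

theorem seg_mem {U : Set F} (hU : Convex ℝ U) {x y : F} (hx : x ∈ U) (hy : y ∈ U) {t : ℝ}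
    (h0 : 0 ≤ t) (h1 : t ≤ 1) : y + t • (x - y) ∈ U := by
  have h := hU hy hx (sub_nonneg.2 h1) h0 (by ring)
  have e : y + t • (x - y) = (1 - t) • y + t • x := by module
  rw [e]; exact h

/-- First differences. -/
theorem mv1 {U : Set F} (hU : Convex ℝ U) (oU : IsOpen U) {h : F → ℝ} (sh : ContDiffOn ℝ ∞ h U)
    {x y : F} (hx : x ∈ U) (hy : y ∈ U) {q : ι → ℝ} {M : ι → F} (e : x - y = ∑ i, q i • M i)
    {r A : ℝ} (hq : ∀ i, |q i| ≤ r) (hA : ∀ i, ∀ w ∈ U, |fderiv ℝ h w (M i)| ≤ A) :
    |h x - h y| ≤ Fintype.card ι * (r * A) := by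
  have d1 : ∀ t ∈ Icc (0 : ℝ) 1, HasDerivWithinAt (fun t => h (y + t • (x - y)))
      (fderiv ℝ h (y + t • (x - y)) (x - y)) (Icc 0 1) t := by
    intro t ht
    have hm := seg_mem hU hx hy ht.1 ht.2
    have h1 : DifferentiableAt ℝ h (y + t • (x - y)) :=
      ((sh _ hm).contDiffAt (oU.mem_nhds hm)).differentiableAt (by simp)
    have h2 : HasDerivAt (fun t : ℝ => y + t • (x - y)) (x - y) t := by
      have := ((hasDerivAt_id t).smul_const (x - y)).const_add y
      simpa using this
    exact (h1.hasFDerivAt.comp_hasDerivAt t h2).hasDerivWithinAt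
  have d2 : ∀ t ∈ Ico (0 : ℝ) 1, ‖fderiv ℝ h (y + t • (x - y)) (x - y)‖ ≤
      Fintype.card ι * (r * A) := by
    intro t ht
    have hm := seg_mem hU hx hy ht.1 ht.2.le
    rw [e, map_sum, Real.norm_eq_abs]
    refine (Finset.abs_sum_le_sum_abs _ _).trans ?_
    have h3 : ∀ i ∈ (Finset.univ : Finset ι),
        |(fderiv ℝ h (y + t • (∑ i, q i • M i))) (q i • M i)| ≤ r * A := fun i _ => by
      rw [map_smul, smul_eq_mul, abs_mul]
      have := hA i _ (e ▸ hm)
      exact mul_le_mul (hq i) this (abs_nonneg _) ((abs_nonneg _).trans (hq i))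
    refine (Finset.sum_le_sum h3).trans (le_of_eq ?_)
    rw [Finset.sum_const, Finset.card_univ, nsmul_eq_mul]
  have h4 := norm_image_sub_le_of_norm_deriv_le_segment_01' d1 d2
  have e1 : y + (1 : ℝ) • (x - y) = x := by module
  have e0 : y + (0 : ℝ) • (x - y) = y := by module
  rw [e1, e0, Real.norm_eq_abs] at h4
  exact h4

/-- Second differences. -/
theorem mv2 {U : Set F} (hU : Convex ℝ U) (oU : IsOpen U) {h : F → ℝ} (sh : ContDiffOn ℝ ∞ h U)
    {x y : F} (hx : x ∈ U) (hy : y ∈ U) {q : ι → ℝ} {M : ι → F} (e : x - y = ∑ i, q i • M i)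
    {r A : ℝ} (hq : ∀ i, |q i| ≤ r)
    (hA : ∀ i j, ∀ w ∈ U, |fderiv ℝ (fun w => fderiv ℝ h w (M i)) w (M j)| ≤ A) :
    |h x + h y - 2 * h ((1 / 2 : ℝ) • (x + y))| ≤
      Fintype.card ι * (r * (Fintype.card ι * (r * A))) := by
  set p : F := (1 / 2 : ℝ) • (x + y) with hp
  set v : F := (1 / 2 : ℝ) • (x - y) with hv
  have mp : ∀ t ∈ Icc (0 : ℝ) 1, p + t • v ∈ U := by
    intro t ht
    have h1 := seg_mem hU hx hy (t := (1 + t) / 2) (by linarith [ht.1]) (by linarith [ht.2])
    have e1 : y + ((1 + t) / 2) • (x - y) = p + t • v := by rw [hp, hv]; module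
    rwa [e1] at h1
  have mm : ∀ t ∈ Icc (0 : ℝ) 1, p - t • v ∈ U := by
    intro t ht
    have h1 := seg_mem hU hx hy (t := (1 - t) / 2) (by linarith [ht.2]) (by linarith [ht.1])
    have e1 : y + ((1 - t) / 2) • (x - y) = p - t • v := by rw [hp, hv]; module
    rwa [e1] at h1
  have df : ∀ w ∈ U, DifferentiableAt ℝ h w := fun w hw =>
    ((sh w hw).contDiffAt (oU.mem_nhds hw)).differentiableAt (by simp)
  have d1 : ∀ t ∈ Icc (0 : ℝ) 1, HasDerivWithinAt
      (fun t => h (p + t • v) + h (p - t • v) - 2 * h p)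
      (fderiv ℝ h (p + t • v) v - fderiv ℝ h (p - t • v) v) (Icc 0 1) t := by
    intro t ht
    have h2 : HasDerivAt (fun t : ℝ => p + t • v) v t := by
      have := ((hasDerivAt_id t).smul_const v).const_add p
      simpa using this
    have h3 : HasDerivAt (fun t : ℝ => p - t • v) (-v) t := by
      have := ((hasDerivAt_id t).smul_const v).const_sub p
      simpa using this
    have h4 := (df _ (mp t ht)).hasFDerivAt.comp_hasDerivAt t h2
    have h5 := (df _ (mm t ht)).hasFDerivAt.comp_hasDerivAt t h3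
    have h6 := ((h4.add h5).sub_const (2 * h p)).hasDerivWithinAt (s := Icc 0 1)
    refine h6.congr_deriv ?_
    rw [map_neg]; ring
  have q0 : ∀ i, 0 ≤ r := fun i => (abs_nonneg _).trans (hq i)
  have sv : v = ∑ i, (q i / 2) • M i := by
    rw [hv, e, Finset.smul_sum]
    refine Finset.sum_congr rfl fun i _ => ?_
    rw [smul_smul]; congr 1; ring
  -- the derivative in the direction `v`
  have sk : ContDiffOn ℝ ∞ (fun w => fderiv ℝ h w v) U :=
    (sh.fderiv_of_isOpen oU (by norm_num)).clm_apply contDiffOn_const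
  have ski : ∀ i, ContDiffOn ℝ ∞ (fun w => fderiv ℝ h w (M i)) U := fun i =>
    (sh.fderiv_of_isOpen oU (by norm_num)).clm_apply contDiffOn_const
  have dk : ∀ j, ∀ w ∈ U, |fderiv ℝ (fun w => fderiv ℝ h w v) w (M j)| ≤
      Fintype.card ι * (r * A) := by
    intro j w hw
    have e1 : (fun w => fderiv ℝ h w v) = fun w => ∑ i, (q i / 2) * fderiv ℝ h w (M i) := by
      funext w
      rw [sv, map_sum]
      exact Finset.sum_congr rfl fun i _ => by rw [map_smul, smul_eq_mul]
    have dfi : ∀ i, DifferentiableAt ℝ (fun w => fderiv ℝ h w (M i)) w := fun i =>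
      ((ski i w hw).contDiffAt (oU.mem_nhds hw)).differentiableAt (by simp)
    rw [e1, fderiv_fun_sum fun i _ => (dfi i).const_mul _, _root_.sum_apply]
    refine (Finset.abs_sum_le_sum_abs _ _).trans ?_
    have h3 : ∀ i ∈ (Finset.univ : Finset ι),
        |(fderiv ℝ (fun w => q i / 2 * fderiv ℝ h w (M i)) w) (M j)| ≤ r * A := fun i _ => by
      rw [fderiv_const_mul (dfi i), _root_.smul_apply, smul_eq_mul, abs_mul]
      have h5 : |q i / 2| ≤ r := by
        rw [abs_div, abs_of_pos (by norm_num : (0 : ℝ) < 2)]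
        have := hq i
        have := abs_nonneg (q i)
        linarith
      exact mul_le_mul h5 (hA i j w hw) (abs_nonneg _) (q0 i)
    refine (Finset.sum_le_sum h3).trans (le_of_eq ?_)
    rw [Finset.sum_const, Finset.card_univ, nsmul_eq_mul]
  have d2 : ∀ t ∈ Ico (0 : ℝ) 1, ‖fderiv ℝ h (p + t • v) v - fderiv ℝ h (p - t • v) v‖ ≤
      Fintype.card ι * (r * (Fintype.card ι * (r * A))) := by
    intro t ht
    have ht' : t ∈ Icc (0 : ℝ) 1 := ⟨ht.1, ht.2.le⟩
    rw [Real.norm_eq_abs]
    refine mv1 (q := fun i => t * q i) (M := M) hU oU sk (mp t ht') (mm t ht') ?_ (fun i => ?_) dk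
    · have e2 : p + t • v - (p - t • v) = t • (x - y) := by rw [hv]; module
      rw [e2, e, Finset.smul_sum]
      exact Finset.sum_congr rfl fun i _ => by rw [smul_smul]
    · rw [abs_mul, abs_of_nonneg ht.1]
      calc t * |q i| ≤ 1 * |q i| := mul_le_mul_of_nonneg_right ht.2.le (abs_nonneg _)
        _ ≤ r := by rw [one_mul]; exact hq i
  have h4 := norm_image_sub_le_of_norm_deriv_le_segment_01' d1 d2
  have e1 : p + (1 : ℝ) • v = x := by rw [hp, hv]; module
  have e2 : p - (1 : ℝ) • v = y := by rw [hp, hv]; module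
  have e3 : p + (0 : ℝ) • v = p := by module
  have e4 : p - (0 : ℝ) • v = p := by module
  rw [e1, e2, e3, e4, Real.norm_eq_abs] at h4
  have e5 : h x + h y - 2 * h p - (h p + h p - 2 * h p) = h x + h y - 2 * h p := by ring
  rw [e5] at h4
  exact h4

end Vale.Agent.P088.R2.H968.B
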