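import Vale.Agent.P088.R2.H968.B.Cal
import Vale.Agent.P088.R2.H968.B.Mv

/-!
# P088: functions of one slot in the graded classes

`E = F × F`, `a_i = (M_i, -M_i) / 2`, `b_i = (M_i, M_i)`. A function `h` on `F` gives `h(x)`, `h(y)`,
`h(p)`, `h(x) - h(y)` (class `(1, 0, …)`), `h(x) + h(y) - 2 h(p)` (class `(2, 1, 0, …)`),
`h(x) + h(y)` (class `(0, 1, 0, …)`).
-/

open Set Filter
open scoped ContDiff Topology

noncomputable section

set_option linter.unusedSectionVars false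

namespace Vale.Agent.P088.R2.H968.B

open Vale.Agent.P088.R2.H464.B

variable {α ι F : Type*} [Fintype ι] [NormedAddCommGroup F] [NormedSpace ℝ F]

/-- The family on one slot. -/
def G1 (M : α → ι → F) (U : α → Set F) (hU : ∀ x, IsOpen (U x)) : Ge α ι F where
  a _ _ := 0
  b := M
  Z := U
  op := hU

/-- A size which does not depend on the point. -/
def cs {E : Type*} (A : α → ℝ) : α → E → ℝ := fun x _ => A x

/-- A constant profile. -/
def cp (A : α → ℝ) : ℕ → α → F → ℝ := fun _ x _ => A x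

/-- The relation between the slots and the pairs. -/
structure Sl2 (G : Ge α ι (F × F)) (M : α → ι → F) (U : α → Set F) (hU : ∀ x, IsOpen (U x))
    (r : α → F × F → ℝ) : Prop where
  ha : ∀ x i, G.a x i = ((1 / 2 : ℝ) • M x i, -((1 / 2 : ℝ) • M x i))
  hb : ∀ x i, G.b x i = (M x i, M x i)
  cv : ∀ x, Convex ℝ (U x)
  m1 : ∀ x, ∀ z ∈ G.Z x, z.1 ∈ U x
  m2 : ∀ x, ∀ z ∈ G.Z x, z.2 ∈ U x
  q : ∀ x, ∀ z ∈ G.Z x, ∃ q : ι → ℝ, z.1 - z.2 = ∑ i, q i • M x i ∧ ∀ i, |q i| ≤ r x z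
  rr : Rr G r

variable {G : Ge α ι (F × F)} {M : α → ι → F} {U : α → Set F} {hU : ∀ x, IsOpen (U x)}
  {r : α → F × F → ℝ}

/-- The directional derivatives of a function of one slot. -/
def D1 (M : α → ι → F) (i : ι) (h : α → F → ℝ) : α → F → ℝ := fun x w => fderiv ℝ (h x) w (M x i)

theorem db_G1 (i : ι) (h : α → F → ℝ) : (G1 M U hU).db i h = D1 M i h := rfl

theorem gc_D1 {K : ℕ} {A : α → ℝ} {h : α → F → ℝ} (hh : (G1 M U hU).Gc (K + 1) (cp A) h) (i : ι) :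
    (G1 M U hU).Gc K (cp A) (D1 M i h) := hh.2.2 i

theorem sm_D1 {h : α → F → ℝ} (sh : (G1 M U hU).Sm h) (i : ι) : (G1 M U hU).Sm (D1 M i h) :=
  sh.db i

/-- The derivatives determine the class on one slot. -/
theorem gc_G1 {K : ℕ} {A : α → ℝ} {h : α → F → ℝ} (h0 : (G1 M U hU).O (cs A) h)
    (h1 : ∀ i, (G1 M U hU).Gc K (cp A) (D1 M i h)) : (G1 M U hU).Gc (K + 1) (cp A) h :=
  ⟨h0, fun i => (Ge.Gc.zero K _).congr fun x z _ => by
    show fderiv ℝ (h x) z (0 : F) = 0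
    rw [map_zero], h1⟩

section
variable (S : Sl2 G M U hU r)
include S

theorem Sl2.mp (x : α) {z : F × F} (hz : z ∈ G.Z x) : (1 / 2 : ℝ) • (z.1 + z.2) ∈ U x := by
  have h := S.cv x (S.m1 x z hz) (S.m2 x z hz) (a := 1 / 2) (b := 1 / 2) (by norm_num) (by norm_num)
    (by norm_num)
  rwa [← smul_add] at h

end

/-! ## The slots -/

/-- `h(x)`, `h(y)`, `h(p)`. -/
def fX (h : α → F → ℝ) : α → F × F → ℝ := fun x z => h x z.1
def fY (h : α → F → ℝ) : α → F × F → ℝ := fun x z => h x z.2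
def fM (h : α → F → ℝ) : α → F × F → ℝ := fun x z => h x ((1 / 2 : ℝ) • (z.1 + z.2))

/-- `h(x) - h(y)`, `h(x) + h(y)`, `h(x) + h(y) - 2 h(p)`. -/
def fQ (h : α → F → ℝ) : α → F × F → ℝ := fun x z => h x z.1 - h x z.2
def fS (h : α → F → ℝ) : α → F × F → ℝ := fun x z => h x z.1 + h x z.2
def fP (h : α → F → ℝ) : α → F × F → ℝ := fun x z =>
  h x z.1 + h x z.2 - 2 * h x ((1 / 2 : ℝ) • (z.1 + z.2))

section
variable (S : Sl2 G M U hU r) {h : α → F → ℝ} (sh : (G1 M U hU).Sm h)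
include S sh

theorem sm_X : G.Sm (fX h) := fun x =>
  (sh x).comp contDiff_fst.contDiffOn fun z hz => S.m1 x z hz

theorem sm_Y : G.Sm (fY h) := fun x =>
  (sh x).comp contDiff_snd.contDiffOn fun z hz => S.m2 x z hz

theorem sm_M : G.Sm (fM h) := fun x =>
  (sh x).comp (f := fun z : F × F => (1 / 2 : ℝ) • (z.1 + z.2))
    (contDiff_const.smul (contDiff_fst.add contDiff_snd)).contDiffOn fun z hz => S.mp x hz

theorem sm_Q : G.Sm (fQ h) := (sm_X S sh).sub (sm_Y S sh)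
theorem sm_S : G.Sm (fS h) := (sm_X S sh).add (sm_Y S sh)
theorem sm_P : G.Sm (fP h) := ((sm_X S sh).add (sm_Y S sh)).sub ((Ge.Sm.const fun _ => 2).mul (sm_M S sh))

theorem fd_X (x : α) {z : F × F} (hz : z ∈ G.Z x) (v : F × F) :
    fderiv ℝ (fX h x) z v = fderiv ℝ (h x) z.1 v.1 := by
  have h1 : DifferentiableAt ℝ (h x) z.1 := Ge.Sm.at sh x (S.m1 x z hz)
  have h2 := h1.hasFDerivAt.comp z (hasFDerivAt_fst (𝕜 := ℝ) (p := z))
  have h3 : fderiv ℝ (fX h x) z = _ := h2.fderiv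
  rw [h3]; rfl

theorem fd_Y (x : α) {z : F × F} (hz : z ∈ G.Z x) (v : F × F) :
    fderiv ℝ (fY h x) z v = fderiv ℝ (h x) z.2 v.2 := by
  have h1 : DifferentiableAt ℝ (h x) z.2 := Ge.Sm.at sh x (S.m2 x z hz)
  have h2 := h1.hasFDerivAt.comp z (hasFDerivAt_snd (𝕜 := ℝ) (p := z))
  have h3 : fderiv ℝ (fY h x) z = _ := h2.fderiv
  rw [h3]; rfl

theorem fd_M (x : α) {z : F × F} (hz : z ∈ G.Z x) (v : F × F) :
    fderiv ℝ (fM h x) z v = fderiv ℝ (h x) ((1 / 2 : ℝ) • (z.1 + z.2))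
      ((1 / 2 : ℝ) • (v.1 + v.2)) := by
  have h1 : DifferentiableAt ℝ (h x) ((1 / 2 : ℝ) • (z.1 + z.2)) := Ge.Sm.at sh x (S.mp x hz)
  have h0 : HasFDerivAt (fun z : F × F => (1 / 2 : ℝ) • (z.1 + z.2))
      ((1 / 2 : ℝ) • (ContinuousLinearMap.fst ℝ F F + ContinuousLinearMap.snd ℝ F F)) z :=
    ((hasFDerivAt_fst (𝕜 := ℝ) (p := z)).add (hasFDerivAt_snd (𝕜 := ℝ) (p := z))).const_smul _
  have h2 := h1.hasFDerivAt.comp z h0
  have h3 : fderiv ℝ (fM h x) z = _ := h2.fderiv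
  rw [h3]; rfl

theorem da_X (i : ι) (x : α) {z : F × F} (hz : z ∈ G.Z x) :
    G.da i (fX h) x z = 1 / 2 * fX (D1 M i h) x z := by
  show fderiv ℝ (fX h x) z (G.a x i) = _
  rw [fd_X S sh x hz, S.ha]
  show fderiv ℝ (h x) z.1 ((1 / 2 : ℝ) • M x i) = _
  rw [map_smul, smul_eq_mul]; rfl

theorem db_X (i : ι) (x : α) {z : F × F} (hz : z ∈ G.Z x) :
    G.db i (fX h) x z = fX (D1 M i h) x z := by
  show fderiv ℝ (fX h x) z (G.b x i) = _
  rw [fd_X S sh x hz, S.hb]; rfl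

theorem da_Y (i : ι) (x : α) {z : F × F} (hz : z ∈ G.Z x) :
    G.da i (fY h) x z = -(1 / 2) * fY (D1 M i h) x z := by
  show fderiv ℝ (fY h x) z (G.a x i) = _
  rw [fd_Y S sh x hz, S.ha]
  show fderiv ℝ (h x) z.2 (-((1 / 2 : ℝ) • M x i)) = _
  rw [map_neg, map_smul, smul_eq_mul]
  show -(1 / 2 * fderiv ℝ (h x) z.2 (M x i)) = -(1 / 2) * fderiv ℝ (h x) z.2 (M x i)
  ring

theorem db_Y (i : ι) (x : α) {z : F × F} (hz : z ∈ G.Z x) :
    G.db i (fY h) x z = fY (D1 M i h) x z := by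
  show fderiv ℝ (fY h x) z (G.b x i) = _
  rw [fd_Y S sh x hz, S.hb]; rfl

theorem da_M (i : ι) (x : α) {z : F × F} (hz : z ∈ G.Z x) : G.da i (fM h) x z = 0 := by
  show fderiv ℝ (fM h x) z (G.a x i) = _
  rw [fd_M S sh x hz, S.ha]
  show fderiv ℝ (h x) _ ((1 / 2 : ℝ) • ((1 / 2 : ℝ) • M x i + -((1 / 2 : ℝ) • M x i))) = _
  rw [add_neg_cancel, smul_zero, map_zero]

theorem db_M (i : ι) (x : α) {z : F × F} (hz : z ∈ G.Z x) :
    G.db i (fM h) x z = fM (D1 M i h) x z := by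
  show fderiv ℝ (fM h x) z (G.b x i) = _
  rw [fd_M S sh x hz, S.hb]
  show fderiv ℝ (h x) _ ((1 / 2 : ℝ) • (M x i + M x i)) = _
  have e : (1 / 2 : ℝ) • (M x i + M x i) = M x i := by module
  rw [e]; rfl

theorem da_Q (i : ι) (x : α) {z : F × F} (hz : z ∈ G.Z x) :
    G.da i (fQ h) x z = 1 / 2 * fX (D1 M i h) x z + 1 / 2 * fY (D1 M i h) x z := by
  have e := da_sub (sm_X S sh) (sm_Y S sh) i x hz
  rw [da_X S sh i x hz, da_Y S sh i x hz] at e
  show G.da i (fun x z => fX h x z - fY h x z) x z = _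
  rw [e]; ring

theorem db_Q (i : ι) (x : α) {z : F × F} (hz : z ∈ G.Z x) :
    G.db i (fQ h) x z = fQ (D1 M i h) x z := by
  have e := db_sub (sm_X S sh) (sm_Y S sh) i x hz
  rw [db_X S sh i x hz, db_Y S sh i x hz] at e
  exact e

theorem da_S (i : ι) (x : α) {z : F × F} (hz : z ∈ G.Z x) :
    G.da i (fS h) x z = 1 / 2 * fQ (D1 M i h) x z := by
  have e := da_add (sm_X S sh) (sm_Y S sh) i x hz
  rw [da_X S sh i x hz, da_Y S sh i x hz] at e
  show G.da i (fun x z => fX h x z + fY h x z) x z = _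
  rw [e]
  show 1 / 2 * D1 M i h x z.1 + -(1 / 2) * D1 M i h x z.2 = 1 / 2 * (D1 M i h x z.1 - D1 M i h x z.2)
  ring

theorem db_S (i : ι) (x : α) {z : F × F} (hz : z ∈ G.Z x) :
    G.db i (fS h) x z = fS (D1 M i h) x z := by
  have e := db_add (sm_X S sh) (sm_Y S sh) i x hz
  rw [db_X S sh i x hz, db_Y S sh i x hz] at e
  exact e

theorem fP_eq (x : α) (z : F × F) : fP h x z = fS h x z - 2 * fM h x z := rfl

theorem da_P (i : ι) (x : α) {z : F × F} (hz : z ∈ G.Z x) :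
    G.da i (fP h) x z = 1 / 2 * fQ (D1 M i h) x z := by
  have s2 : G.Sm fun x z => 2 * fM h x z := (Ge.Sm.const fun _ => 2).mul (sm_M S sh)
  have e := da_sub (sm_S S sh) s2 i x hz
  have e2 : G.da i (fun x z => 2 * fM h x z) x z = 2 * G.da i (fM h) x z := by
    show fderiv ℝ (fun z => 2 * fM h x z) z _ = _
    rw [fderiv_const_mul (Ge.Sm.at (sm_M S sh) x hz)]; rfl
  rw [e2, da_M S sh i x hz, mul_zero, sub_zero, da_S S sh i x hz] at e
  exact e

theorem db_P (i : ι) (x : α) {z : F × F} (hz : z ∈ G.Z x) :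
    G.db i (fP h) x z = fP (D1 M i h) x z := by
  have s2 : G.Sm fun x z => 2 * fM h x z := (Ge.Sm.const fun _ => 2).mul (sm_M S sh)
  have e := db_sub (sm_S S sh) s2 i x hz
  have e2 : G.db i (fun x z => 2 * fM h x z) x z = 2 * G.db i (fM h) x z := by
    show fderiv ℝ (fun z => 2 * fM h x z) z _ = _
    rw [fderiv_const_mul (Ge.Sm.at (sm_M S sh) x hz)]; rfl
  rw [e2, db_M S sh i x hz, db_S S sh i x hz] at e
  exact e

end

/-! ## The classes -/

section
variable (S : Sl2 G M U hU r) {A : α → ℝ} (hA : ∀ x, 0 ≤ A x)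
include S hA

theorem cs_nn : G.Nn (cs A) := fun x _ _ => hA x

theorem gc_X : ∀ {K : ℕ} {h : α → F → ℝ}, (G1 M U hU).Sm h → (G1 M U hU).Gc K (cp A) h →
    G.Gc K (pg (cs A) r Z0) (fX h) := by
  intro K
  induction K with
  | zero =>
    intro h sh hh
    obtain ⟨C, hC⟩ := hh
    exact ⟨C, fun x z hz => by
      simpa [pg, cs, Z0, fX, cp] using hC x z.1 (S.m1 x z hz)⟩
  | succ K ih =>
    intro h sh hh
    refine ⟨?_, fun i => ?_, fun i => ?_⟩
    · obtain ⟨C, hC⟩ := hh.1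
      exact ⟨C, fun x z hz => by
        simpa [pg, cs, Z0, fX, cp] using hC x z.1 (S.m1 x z hz)⟩
    · exact (pg_cmul S.rr (cs_nn S hA) (ih (sm_D1 sh i) (gc_D1 hh i)) (sm_X S (sm_D1 sh i))
        (1 / 2)).congr fun x z hz => da_X S sh i x hz
    · exact (ih (sm_D1 sh i) (gc_D1 hh i)).congr fun x z hz => db_X S sh i x hz

theorem gc_Y : ∀ {K : ℕ} {h : α → F → ℝ}, (G1 M U hU).Sm h → (G1 M U hU).Gc K (cp A) h →
    G.Gc K (pg (cs A) r Z0) (fY h) := by
  intro K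
  induction K with
  | zero =>
    intro h sh hh
    obtain ⟨C, hC⟩ := hh
    exact ⟨C, fun x z hz => by
      simpa [pg, cs, Z0, fY, cp] using hC x z.2 (S.m2 x z hz)⟩
  | succ K ih =>
    intro h sh hh
    refine ⟨?_, fun i => ?_, fun i => ?_⟩
    · obtain ⟨C, hC⟩ := hh.1
      exact ⟨C, fun x z hz => by
        simpa [pg, cs, Z0, fY, cp] using hC x z.2 (S.m2 x z hz)⟩
    · exact (pg_cmul S.rr (cs_nn S hA) (ih (sm_D1 sh i) (gc_D1 hh i)) (sm_Y S (sm_D1 sh i))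
        (-(1 / 2))).congr fun x z hz => da_Y S sh i x hz
    · exact (ih (sm_D1 sh i) (gc_D1 hh i)).congr fun x z hz => db_Y S sh i x hz

/-- Functions of the midpoint: any profile starting with `0`. -/
theorem gc_M {B : ℕ → ℕ} (hB : B 0 = 0) : ∀ {K : ℕ} {h : α → F → ℝ}, (G1 M U hU).Sm h →
    (G1 M U hU).Gc K (cp A) h → G.Gc K (pg (cs A) r B) (fM h) := by
  intro K
  induction K with
  | zero =>
    intro h sh hh
    obtain ⟨C, hC⟩ := hh
    exact ⟨C, fun x z hz => by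
      simpa [pg, cs, hB, fM, cp] using hC x _ (S.mp x hz)⟩
  | succ K ih =>
    intro h sh hh
    refine ⟨?_, fun i => ?_, fun i => ?_⟩
    · obtain ⟨C, hC⟩ := hh.1
      exact ⟨C, fun x z hz => by
        simpa [pg, cs, hB, fM, cp] using hC x _ (S.mp x hz)⟩
    · exact (Ge.Gc.zero K _).congr fun x z hz => da_M S sh i x hz
    · exact (ih (sm_D1 sh i) (gc_D1 hh i)).congr fun x z hz => db_M S sh i x hz

/-- The value of a first difference. -/
theorem O_Q {h : α → F → ℝ} (sh : (G1 M U hU).Sm h)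
    (hh : ∀ i, (G1 M U hU).O (cs A) (D1 M i h)) :
    G.O (fun x z => A x * r x z) (fQ h) := by
  choose C hC0 hC using fun i => (hh i).nn (fun x _ _ => hA x)
  refine ⟨Fintype.card ι * ∑ i, C i, fun x z hz => ?_⟩
  obtain ⟨q, e, hq⟩ := S.q x z hz
  have h1 := mv1 (S.cv x) (hU x) (sh x) (S.m1 x z hz) (S.m2 x z hz) e hq (A := (∑ i, C i) * A x)
    fun i w hw => (hC i x w hw).trans (mul_le_mul_of_nonneg_right
      (Finset.single_le_sum (f := C) (fun i _ => hC0 i) (Finset.mem_univ i)) (hA x))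
  refine h1.trans (le_of_eq ?_)
  ring

/-- The value of a second difference. -/
theorem O_P {h : α → F → ℝ} (sh : (G1 M U hU).Sm h)
    (hh : ∀ i j, (G1 M U hU).O (cs A) (D1 M j (D1 M i h))) :
    G.O (fun x z => A x * r x z ^ 2) (fP h) := by
  choose C hC0 hC using fun i => fun j => (hh i j).nn (fun x _ _ => hA x)
  refine ⟨(Fintype.card ι : ℝ) ^ 2 * ∑ i, ∑ j, C i j, fun x z hz => ?_⟩
  obtain ⟨q, e, hq⟩ := S.q x z hz
  have h1 := mv2 (S.cv x) (hU x) (sh x) (S.m1 x z hz) (S.m2 x z hz) e hq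
    (A := (∑ i, ∑ j, C i j) * A x)
    fun i j w hw => (hC i j x w hw).trans (mul_le_mul_of_nonneg_right
      ((Finset.single_le_sum (f := C i) (fun j _ => hC0 i j) (Finset.mem_univ j)).trans
        (Finset.single_le_sum (f := fun i => ∑ j, C i j)
          (fun i _ => Finset.sum_nonneg fun j _ => hC0 i j) (Finset.mem_univ i))) (hA x))
  refine h1.trans (le_of_eq ?_)
  ring

/-- **First differences.** -/
theorem gc_Q : ∀ {K : ℕ} {h : α → F → ℝ}, (G1 M U hU).Sm h →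
    (∀ i, (G1 M U hU).Gc K (cp A) (D1 M i h)) → G.Gc K (pg (cs A) r O1) (fQ h) := by
  intro K
  induction K with
  | zero =>
    intro h sh hh
    exact (O_Q S hA sh hh).mono (fun x z hz => mul_nonneg (hA x) (S.rr.r0 x z hz)) (A := 1)
      fun x z _ => by simp [pg, cs, O1, x3]
  | succ K ih =>
    intro h sh hh
    refine ⟨?_, fun i => ?_, fun i => ?_⟩
    · exact (O_Q S hA sh fun i => (hh i).1).mono
        (fun x z hz => mul_nonneg (hA x) (S.rr.r0 x z hz)) (A := 1)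
        fun x z _ => by simp [pg, cs, O1, x3]
    · have c1 := pg_cmul S.rr (cs_nn S hA) (gc_X S hA (sm_D1 sh i) (hh i).mono_K)
        (sm_X S (sm_D1 sh i)) (1 / 2)
      have c2 := pg_cmul S.rr (cs_nn S hA) (gc_Y S hA (sm_D1 sh i) (hh i).mono_K)
        (sm_Y S (sm_D1 sh i)) (1 / 2)
      have c3 := c1.add c2 ((Ge.Sm.const fun _ => 1 / 2).mul (sm_X S (sm_D1 sh i)))
        ((Ge.Sm.const fun _ => 1 / 2).mul (sm_Y S (sm_D1 sh i)))
      have c4 := c3.congr fun x z hz => da_Q S sh i x hz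
      exact pg_to S.rr (cs_nn S hA) c4 fun j _ => ⟨1, fun x z _ => by
        simp [pg, Z0, O1_eq]⟩
    · exact (ih (sm_D1 sh i) fun j => (hh i).2.2 j).congr fun x z hz => db_Q S sh i x hz

/-- **Second differences.** -/
theorem gc_P : ∀ {K : ℕ} {h : α → F → ℝ}, (G1 M U hU).Sm h →
    (∀ i j, (G1 M U hU).Gc K (cp A) (D1 M j (D1 M i h))) → G.Gc K (pg (cs A) r O2) (fP h) := by
  intro K
  induction K with
  | zero =>
    intro h sh hh
    exact (O_P S hA sh hh).mono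
      (fun x z hz => mul_nonneg (hA x) (pow_nonneg (S.rr.r0 x z hz) 2)) (A := 1)
      fun x z _ => by simp [pg, cs, O2, x3]
  | succ K ih =>
    intro h sh hh
    refine ⟨?_, fun i => ?_, fun i => ?_⟩
    · exact (O_P S hA sh fun i j => (hh i j).1).mono
        (fun x z hz => mul_nonneg (hA x) (pow_nonneg (S.rr.r0 x z hz) 2)) (A := 1)
        fun x z _ => by simp [pg, cs, O2, x3]
    · have c1 := pg_cmul S.rr (cs_nn S hA) (gc_Q S hA (sm_D1 sh i) fun j => (hh i j).mono_K)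
        (sm_Q S (sm_D1 sh i)) (1 / 2)
      have c4 := c1.congr fun x z hz => da_P S sh i x hz
      exact pg_to S.rr (cs_nn S hA) c4 fun j _ => ⟨1, fun x z _ => by
        simp [pg, O2_succ]⟩
    · exact (ih (sm_D1 sh i) fun j k => (hh i j).2.2 k |> fun h => by
        exact h).congr fun x z hz => db_P S sh i x hz

/-- **Sums.** -/
theorem gc_S : ∀ {K : ℕ} {h : α → F → ℝ}, (G1 M U hU).Sm h →
    (G1 M U hU).Gc (K + 1) (cp A) h → G.Gc K (pg (cs A) r E0) (fS h) := by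
  intro K
  induction K with
  | zero =>
    intro h sh hh
    have c := (gc_X S hA sh hh.mono_K).add (gc_Y S hA sh hh.mono_K) (sm_X S sh) (sm_Y S sh)
    exact (c.zero_of).mono (pg_nn S.rr (cs_nn S hA) _ 0) (A := 1)
      fun x z _ => by simp [pg, Z0, E0, x3]
  | succ K ih =>
    intro h sh hh
    refine ⟨?_, fun i => ?_, fun i => ?_⟩
    · have c := (gc_X S hA sh hh).add (gc_Y S hA sh hh) (sm_X S sh) (sm_Y S sh)
      exact (c.zero_of).mono (pg_nn S.rr (cs_nn S hA) _ 0) (A := 1)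
        fun x z _ => by simp [pg, Z0, E0, x3]
    · have c1 := pg_cmul S.rr (cs_nn S hA) (gc_Q S hA (sm_D1 sh i) fun j => (hh.2.2 i).2.2 j)
        (sm_Q S (sm_D1 sh i)) (1 / 2)
      have c4 := c1.congr fun x z hz => da_S S sh i x hz
      exact pg_to S.rr (cs_nn S hA) c4 fun j _ => ⟨1, fun x z _ => by
        simp [pg, E0_succ]⟩
    · exact (ih (sm_D1 sh i) (hh.2.2 i)).congr fun x z hz => db_S S sh i x hz

end

end Vale.Agent.P088.R2.H968.B
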