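import Vale.Agent.P088.R2.H968.B.Slot
import Mathlib.Analysis.SpecialFunctions.ExpDeriv
import Mathlib.Analysis.Calculus.Deriv.MeanValue

/-!
# P088: the true weight near the diagonal, in the graded classes

`u = l(x) + l(y) + 2 m(p)`, `u₀ = 2 l(p) + 2 m(p)`, `ρ² = g_ij(p) q_i q_j`,
`W = Φ(u) + e^u P(ρ²)`, `W₀ = Φ(u₀) + e^(u₀) |q|² / 2`.
-/

open Set Filter
open scoped ContDiff Topology

noncomputable section

set_option linter.unusedSectionVars false

namespace Vale.Agent.P088.R2.H968.B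

open Vale.Agent.P088.R2.H464.B

variable {α ι F : Type*} [Fintype ι] [NormedAddCommGroup F] [NormedSpace ℝ F]
  {G : Ge α ι (F × F)} {M : α → ι → F} {U : α → Set F} {hU : ∀ x, IsOpen (U x)}
  {r : α → F × F → ℝ}

/-! ## Tools -/

/-- The class of a derivative family from the classes of its derivatives. -/
theorem gc_of {E : Type*} [NormedAddCommGroup E] [NormedSpace ℝ E] {G : Ge α ι E}
    {r A f : α → E → ℝ} {B : ℕ → ℕ} {K : ℕ} (h0 : G.O (fun x z => A x z * r x z ^ B 0) f)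
    (ha : ∀ i, G.Gc K (pg A r fun j => B (j + 1)) (G.da i f))
    (hb : ∀ i, G.Gc K (pg A r B) (G.db i f)) : G.Gc (K + 1) (pg A r B) f := ⟨h0, ha, hb⟩

/-- A finite sum in a class. -/
theorem gc_sum {E κ : Type*} [NormedAddCommGroup E] [NormedSpace ℝ E] {G : Ge α ι E}
    {p : ℕ → α → E → ℝ} {K : ℕ} [Fintype κ] {f : κ → α → E → ℝ} (h : ∀ i, G.Gc K p (f i))
    (s : ∀ i, G.Sm (f i)) : G.Gc K p fun x z => ∑ i, f i x z :=
  Ge.Gc.sum _ (fun i _ => h i) fun i _ => s i

/-- `H(v)`, `H(0) = 0`, `v` of the size `r²`. -/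
def B2 : ℕ → ℕ → ℕ
  | 0 => O2
  | _ + 1 => Z0

theorem comp_O2 {E : Type*} [NormedAddCommGroup E] [NormedSpace ℝ E] {G : Ge α ι E}
    {r v : α → E → ℝ} {H : ℕ → α → ℝ → ℝ} (hH : Fd1 H) (hr : Rr G r) (sv : G.Sm v)
    (h0 : ∀ m, G.O (fun x z => r x z ^ B2 m 0) fun x z => H m x (v x z)) {K : ℕ}
    (ha : ∀ i, G.Gc K (pg un r O1) (G.da i v)) (hb : ∀ i, G.Gc K (pg un r O2) (G.db i v)) (m : ℕ) :
    G.Gc (K + 1) (pg un r (B2 m)) fun x z => H m x (v x z) := by
  refine comp_gc (B := B2) hH hr un_nn sv (fun m => by simpa [un] using h0 m) ?_ ?_ K ha hb m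
  · intro m j i h
    match m with
    | 0 =>
      show O2 (j + 1) ≤ 0 + O1 (j - i)
      rw [O2_eq, O1_eq]; omega
    | m + 1 => exact Nat.zero_le _
  · intro m j i h
    match m with
    | 0 =>
      show O2 j ≤ 0 + O2 (j - i)
      rw [O2_eq, O2_eq]; omega
    | m + 1 => exact Nat.zero_le _

/-- The exponential. -/
theorem fd_exp : Fd1 fun (_ : ℕ) (_ : α) (t : ℝ) => Real.exp t :=
  ⟨fun _ _ => Real.contDiff_exp, fun _ _ t => Real.hasDerivAt_exp t⟩

/-- Mean value on the line. -/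
theorem mvl {f f' : ℝ → ℝ} (hf : ∀ t, HasDerivAt f (f' t) t) {a b C : ℝ}
    (hC : ∀ t ∈ uIcc a b, |f' t| ≤ C) : |f a - f b| ≤ C * |a - b| := by
  have h := Convex.norm_image_sub_le_of_norm_hasDerivWithin_le (f := f) (f' := f') (s := uIcc a b)
    (C := C) (fun t _ => (hf t).hasDerivWithinAt) (fun t ht => by
      rw [Real.norm_eq_abs]; exact hC t ht) (convex_uIcc a b) (right_mem_uIcc) (left_mem_uIcc)
  simpa [Real.norm_eq_abs] using h

/-- Growth of a slope with `|f'| ≤ C f`. -/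
theorem gro {f f' : ℝ → ℝ} (hf : ∀ t, HasDerivAt f (f' t) t) {C : ℝ}
    (hC : ∀ t, |f' t| ≤ C * f t) (a b : ℝ) : f a ≤ Real.exp (C * |a - b|) * f b := by
  rcases le_total b a with h | h
  · have h1 : AntitoneOn (fun t => Real.exp (-(C * t)) * f t) univ := by
      refine antitoneOn_of_deriv_nonpos convex_univ ?_ ?_ ?_
      · exact ((Real.continuous_exp.comp (continuous_const.mul continuous_id).neg).mul
          (continuous_iff_continuousAt.2 fun t => (hf t).continuousAt)).continuousOn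
      · intro t _
        exact (((((hasDerivAt_id t).const_mul C).neg).exp).mul (hf t)).differentiableAt.differentiableWithinAt
      · intro t _
        have h2 : HasDerivAt (fun t => Real.exp (-(C * t)) * f t)
            (Real.exp (-(C * t)) * -(C * 1) * f t + Real.exp (-(C * t)) * f' t) t :=
          (((hasDerivAt_id t).const_mul C).neg.exp).mul (hf t)
        rw [h2.deriv]
        have h3 := (le_abs_self _).trans (hC t)
        have h4 := Real.exp_pos (-(C * t))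
        nlinarith
    have h2 := h1 (mem_univ b) (mem_univ a) h
    simp only at h2
    have h3 : Real.exp (C * a) * (Real.exp (-(C * a)) * f a) = f a := by
      rw [← mul_assoc, ← Real.exp_add]; simp
    rw [abs_of_nonneg (sub_nonneg.2 h), ← h3]
    refine (mul_le_mul_of_nonneg_left h2 (Real.exp_pos _).le).trans (le_of_eq ?_)
    rw [← mul_assoc, ← Real.exp_add]
    congr 2; ring
  · have h1 : MonotoneOn (fun t => Real.exp (C * t) * f t) univ := by
      refine monotoneOn_of_deriv_nonneg convex_univ ?_ ?_ ?_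
      · exact ((Real.continuous_exp.comp (continuous_const.mul continuous_id)).mul
          (continuous_iff_continuousAt.2 fun t => (hf t).continuousAt)).continuousOn
      · intro t _
        exact (((((hasDerivAt_id t).const_mul C)).exp).mul (hf t)).differentiableAt.differentiableWithinAt
      · intro t _
        have h2 : HasDerivAt (fun t => Real.exp (C * t) * f t)
            (Real.exp (C * t) * (C * 1) * f t + Real.exp (C * t) * f' t) t :=
          (((hasDerivAt_id t).const_mul C).exp).mul (hf t)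
        rw [h2.deriv]
        have h3 := (neg_le_abs _).trans (hC t)
        have h4 := Real.exp_pos (C * t)
        nlinarith
    have h2 := h1 (mem_univ a) (mem_univ b) h
    simp only at h2
    have h3 : Real.exp (-(C * a)) * (Real.exp (C * a) * f a) = f a := by
      rw [← mul_assoc, ← Real.exp_add]; simp
    rw [abs_of_nonpos (sub_nonpos.2 h), ← h3]
    refine (mul_le_mul_of_nonneg_left h2 (Real.exp_pos _).le).trans (le_of_eq ?_)
    rw [← mul_assoc, ← Real.exp_add]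
    congr 2; ring

/-! ## The level -/

section level

variable (S : Sl2 G M U hU r) {ρi : α → ℝ} (ρ0 : ∀ x, 0 ≤ ρi x) (ρ1 : ∀ x, ρi x ≤ 1)
  {l m : α → F → ℝ} (sl : (G1 M U hU).Sm l) (sm : (G1 M U hU).Sm m) {K : ℕ}
  (hl1 : ∀ i, (G1 M U hU).Gc (K + 1) (cp fun _ => 1) (D1 M i l))
  (hl2 : ∀ i j, (G1 M U hU).Gc (K + 1) (cp ρi) (D1 M j (D1 M i l)))
  (hm : ∀ i, (G1 M U hU).Gc (K + 1) (cp fun _ => 1) (D1 M i m))

/-- `u` and `u₀`. -/
def fu (l m : α → F → ℝ) : α → F × F → ℝ := fun x z => fS l x z + 2 * fM m x z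
def fu0 (l m : α → F → ℝ) : α → F × F → ℝ := fun x z => 2 * fM l x z + 2 * fM m x z

theorem fu_sub (l m : α → F → ℝ) (x : α) (z : F × F) :
    fu l m x z - fu0 l m x z = fP l x z := by
  simp only [fu, fu0, fS, fM, fP]; ring

include S sl sm

theorem sm_fu : G.Sm (fu l m) := (sm_S S sl).add ((Ge.Sm.const fun _ => 2).mul (sm_M S sm))

theorem sm_fu0 : G.Sm (fu0 l m) :=
  ((Ge.Sm.const fun _ => 2).mul (sm_M S sl)).add ((Ge.Sm.const fun _ => 2).mul (sm_M S sm))

theorem da_cm (h : α → F × F → ℝ) (sh : G.Sm h) (c : ℝ) (i : ι) (x : α) {z : F × F}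
    (hz : z ∈ G.Z x) : G.da i (fun x z => c * h x z) x z = c * G.da i h x z := by
  show fderiv ℝ (fun z => c * h x z) z _ = _
  rw [fderiv_const_mul (Ge.Sm.at sh x hz)]; rfl

theorem db_cm (h : α → F × F → ℝ) (sh : G.Sm h) (c : ℝ) (i : ι) (x : α) {z : F × F}
    (hz : z ∈ G.Z x) : G.db i (fun x z => c * h x z) x z = c * G.db i h x z := by
  show fderiv ℝ (fun z => c * h x z) z _ = _
  rw [fderiv_const_mul (Ge.Sm.at sh x hz)]; rfl

theorem da_fu (i : ι) (x : α) {z : F × F} (hz : z ∈ G.Z x) :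
    G.da i (fu l m) x z = 1 / 2 * fQ (D1 M i l) x z := by
  have e := da_add (sm_S S sl) ((Ge.Sm.const fun _ => 2).mul (sm_M S sm)) i x hz
  rw [da_cm S sl sm _ (sm_M S sm), da_M S sm i x hz, da_S S sl i x hz, mul_zero, add_zero] at e
  · exact e
  · exact hz

theorem db_fu (i : ι) (x : α) {z : F × F} (hz : z ∈ G.Z x) :
    G.db i (fu l m) x z = fS (D1 M i l) x z + 2 * fM (D1 M i m) x z := by
  have e := db_add (sm_S S sl) ((Ge.Sm.const fun _ => 2).mul (sm_M S sm)) i x hz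
  rw [db_cm S sl sm _ (sm_M S sm), db_M S sm i x hz, db_S S sl i x hz] at e
  · exact e
  · exact hz

theorem da_fu0 (i : ι) (x : α) {z : F × F} (hz : z ∈ G.Z x) : G.da i (fu0 l m) x z = 0 := by
  have e := da_add ((Ge.Sm.const fun _ => 2).mul (sm_M S sl))
    ((Ge.Sm.const fun _ => 2).mul (sm_M S sm)) i x hz
  rw [da_cm S sl sm _ (sm_M S sm) _ _ _ hz, da_cm S sl sm _ (sm_M S sl) _ _ _ hz,
    da_M S sm i x hz, da_M S sl i x hz, mul_zero, add_zero] at e
  exact e

theorem db_fu0 (i : ι) (x : α) {z : F × F} (hz : z ∈ G.Z x) :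
    G.db i (fu0 l m) x z = 2 * fM (D1 M i l) x z + 2 * fM (D1 M i m) x z := by
  have e := db_add ((Ge.Sm.const fun _ => 2).mul (sm_M S sl))
    ((Ge.Sm.const fun _ => 2).mul (sm_M S sm)) i x hz
  rw [db_cm S sl sm _ (sm_M S sm) _ _ _ hz, db_cm S sl sm _ (sm_M S sl) _ _ _ hz,
    db_M S sm i x hz, db_M S sl i x hz] at e
  exact e

include ρ0 ρ1 hl2

theorem gc_da_fu (i : ι) : G.Gc (K + 1) (pg un r O1) (G.da i (fu l m)) := by
  have c := (pg_cmul S.rr (cs_nn S ρ0) (gc_Q S ρ0 (sm_D1 sl i) (hl2 i)) (sm_Q S (sm_D1 sl i))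
    (1 / 2)).congr fun x z hz => da_fu S sl sm i x hz
  exact pg_mono S.rr (cs_nn S ρ0) c ⟨1, fun x z _ => by simpa [cs, un] using ρ1 x⟩ fun j _ => le_rfl

theorem gc_da_v (i : ι) : G.Gc (K + 1) (pg (cs ρi) r O1)
    (G.da i fun x z => fu l m x z - fu0 l m x z) := by
  refine (pg_cmul S.rr (cs_nn S ρ0) (gc_Q S ρ0 (sm_D1 sl i) (hl2 i)) (sm_Q S (sm_D1 sl i))
    (1 / 2)).congr fun x z hz => ?_
  rw [da_sub (sm_fu S sl sm) (sm_fu0 S sl sm) i x hz, da_fu S sl sm i x hz,
    da_fu0 S sl sm i x hz, sub_zero]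

theorem gc_db_v (i : ι) : G.Gc K (pg (cs ρi) r O2)
    (G.db i fun x z => fu l m x z - fu0 l m x z) := by
  refine (gc_P S ρ0 (sm_D1 sl i) fun j k => (hl2 i j).2.2 k).congr fun x z hz => ?_
  rw [db_sub (sm_fu S sl sm) (sm_fu0 S sl sm) i x hz, db_fu S sl sm i x hz,
    db_fu0 S sl sm i x hz]
  simp only [fS, fM, fP]; ring

omit ρ0 ρ1 hl2
include hl1 hm

theorem gc_db_fu (i : ι) : G.Gc K (pg un r E0) (G.db i (fu l m)) := by
  have c1 := gc_S S (fun _ => zero_le_one) (sm_D1 sl i) (hl1 i)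
  have c2 := pg_cmul S.rr (cs_nn S fun _ => zero_le_one)
    (gc_M S (fun _ => zero_le_one) (B := E0) rfl (sm_D1 sm i) (hm i).mono_K)
    (sm_M S (sm_D1 sm i)) 2
  exact (c1.add c2 (sm_S S (sm_D1 sl i)) ((Ge.Sm.const fun _ => 2).mul
    (sm_M S (sm_D1 sm i)))).congr fun x z hz => db_fu S sl sm i x hz

theorem gc_db_fu0 {B : ℕ → ℕ} (hB : B 0 = 0) (i : ι) :
    G.Gc (K + 1) (pg un r B) (G.db i (fu0 l m)) := by
  have c1 := pg_cmul S.rr (cs_nn S fun _ => zero_le_one)
    (gc_M S (fun _ => zero_le_one) (B := B) hB (sm_D1 sl i) (hl1 i)) (sm_M S (sm_D1 sl i)) 2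
  have c2 := pg_cmul S.rr (cs_nn S fun _ => zero_le_one)
    (gc_M S (fun _ => zero_le_one) (B := B) hB (sm_D1 sm i) (hm i)) (sm_M S (sm_D1 sm i)) 2
  exact (c1.add c2 ((Ge.Sm.const fun _ => 2).mul (sm_M S (sm_D1 sl i)))
    ((Ge.Sm.const fun _ => 2).mul (sm_M S (sm_D1 sm i)))).congr fun x z hz => db_fu0 S sl sm i x hz

end level

end Vale.Agent.P088.R2.H968.B
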