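import Vale.Agent.P088.R2.H968.B.Asm

/-!
# P088: the true weight near the diagonal, in the graded classes (2)
-/

open Set Filter
open scoped ContDiff Topology

noncomputable section

set_option linter.unusedSectionVars false

namespace Vale.Agent.P088.R2.H968.B

open Vale.Agent.P088.R2.H464.B

variable {α ι F : Type*} [Fintype ι] [NormedAddCommGroup F] [NormedSpace ℝ F]
  {G : Ge α ι (F × F)} {M : α → ι → F} {U : α → Set F} {hU : ∀ x, IsOpen (U x)}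
  {r : α → F × F → ℝ}

/-- The slope: `Φ' ≥ 0`, `|Φ^(m+2)| ≤ C Φ'`. -/
structure SlP (Φ : ℕ → α → ℝ → ℝ) : Prop where
  fd : Fd1 Φ
  p1 : ∀ x t, 0 ≤ Φ 1 x t
  p2 : ∀ m, ∃ C, ∀ x t, |Φ (m + 2) x t| ≤ C * Φ 1 x t

theorem SlP.p2' {Φ : ℕ → α → ℝ → ℝ} (h : SlP Φ) (m : ℕ) :
    ∃ C, 0 ≤ C ∧ ∀ x t, |Φ (m + 1) x t| ≤ C * Φ 1 x t := by
  match m with
  | 0 => exact ⟨1, zero_le_one, fun x t => by rw [abs_of_nonneg (h.p1 x t), one_mul]⟩
  | m + 1 =>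
    obtain ⟨C, hC⟩ := h.p2 m
    exact ⟨|C|, abs_nonneg C, fun x t => (hC x t).trans
      (mul_le_mul_of_nonneg_right (le_abs_self C) (h.p1 x t))⟩

/-- `Φ'(s) ≤ C Φ'(t)` for `|s - t| ≤ L`. -/
theorem SlP.gr {Φ : ℕ → α → ℝ → ℝ} (h : SlP Φ) (L : ℝ) :
    ∃ C, 0 ≤ C ∧ ∀ x s t, |s - t| ≤ L → Φ 1 x s ≤ C * Φ 1 x t := by
  obtain ⟨C, hC0, hC⟩ := h.p2' 1
  refine ⟨Real.exp (C * L), (Real.exp_pos _).le, fun x s t hst => ?_⟩
  refine (gro (h.fd.d 1 x) (hC x) s t).trans ?_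
  refine mul_le_mul_of_nonneg_right (Real.exp_le_exp.2 ?_) (h.p1 x t)
  exact mul_le_mul_of_nonneg_left hst hC0

/-- `|Φ^(m+1)(s)| ≤ C Φ'(t)` for `|s - t| ≤ L`. -/
theorem SlP.gr' {Φ : ℕ → α → ℝ → ℝ} (h : SlP Φ) (L : ℝ) (m : ℕ) :
    ∃ C, 0 ≤ C ∧ ∀ x s t, |s - t| ≤ L → |Φ (m + 1) x s| ≤ C * Φ 1 x t := by
  obtain ⟨C, hC0, hC⟩ := h.p2' m
  obtain ⟨D, hD0, hD⟩ := h.gr L
  refine ⟨C * D, mul_nonneg hC0 hD0, fun x s t hst => (hC x s).trans ?_⟩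
  rw [mul_assoc]
  exact mul_le_mul_of_nonneg_left (hD x s t hst) hC0

/-- The data of the family. -/
structure Fh (G : Ge α ι (F × F)) (M : α → ι → F) (U : α → Set F) (hU : ∀ x, IsOpen (U x))
    (r : α → F × F → ℝ) (ρi : α → ℝ) (l m : α → F → ℝ) (K : ℕ) : Prop where
  S : Sl2 G M U hU r
  ρ0 : ∀ x, 0 ≤ ρi x
  ρ1 : ∀ x, ρi x ≤ 1
  sl : (G1 M U hU).Sm l
  sm : (G1 M U hU).Sm m
  hl1 : ∀ i, (G1 M U hU).Gc (K + 1) (cp fun _ => 1) (D1 M i l)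
  hl2 : ∀ i j, (G1 M U hU).Gc (K + 1) (cp ρi) (D1 M j (D1 M i l))
  hm : ∀ i, (G1 M U hU).Gc (K + 1) (cp fun _ => 1) (D1 M i m)

section
variable {ρi : α → ℝ} {l m : α → F → ℝ} {K : ℕ} (h : Fh G M U hU r ρi l m K)
include h

theorem Fh.su : G.Sm (fu l m) := sm_fu h.S h.sl h.sm
theorem Fh.su0 : G.Sm (fu0 l m) := sm_fu0 h.S h.sl h.sm

/-- `|u - u₀| ≤ C R⁻¹ r²`. -/
theorem Fh.v0 : ∃ C, 0 ≤ C ∧ ∀ x, ∀ z ∈ G.Z x, |fu l m x z - fu0 l m x z| ≤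
    C * (ρi x * r x z ^ 2) := by
  obtain ⟨C, hC0, hC⟩ := (O_P h.S h.ρ0 h.sl fun i j => (h.hl2 i j).1).nn
    (fun x z hz => mul_nonneg (h.ρ0 x) (pow_nonneg (h.S.rr.r0 x z hz) 2))
  exact ⟨C, hC0, fun x z hz => by rw [fu_sub]; exact hC x z hz⟩

theorem Fh.v1 : ∃ C, 0 ≤ C ∧ ∀ x, ∀ z ∈ G.Z x, |fu l m x z - fu0 l m x z| ≤ C := by
  obtain ⟨C, hC0, hC⟩ := h.v0
  refine ⟨C, hC0, fun x z hz => (hC x z hz).trans ?_⟩
  have r0 := h.S.rr.r0 x z hz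
  have r1 := h.S.rr.r1 x z hz
  have h1 : ρi x * r x z ^ 2 ≤ 1 * 1 := mul_le_mul (h.ρ1 x) (pow_le_one₀ r0 r1) (by positivity)
    zero_le_one
  calc C * (ρi x * r x z ^ 2) ≤ C * (1 * 1) := mul_le_mul_of_nonneg_left h1 hC0
    _ = C := by ring

/-- The size of the slope. -/
def fN (Φ : ℕ → α → ℝ → ℝ) (l m : α → F → ℝ) : α → F × F → ℝ := fun x z => Φ 1 x (fu0 l m x z)

/-- **The slope part.** -/
theorem Fh.slope {Φ : ℕ → α → ℝ → ℝ} (hΦ : SlP Φ) :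
    G.Gc (K + 1) (pg (fun x z => fN Φ l m x z * cs ρi x z) r O2)
      fun x z => Φ 0 x (fu l m x z) - Φ 0 x (fu0 l m x z) := by
  obtain ⟨L, hL0, hL⟩ := h.v1
  obtain ⟨C', hC'0, hC'⟩ := h.v0
  have nN : G.Nn (fN Φ l m) := fun x z _ => hΦ.p1 x _
  refine diff_O2 hΦ.fd h.S.rr nN (cs_nn h.S h.ρ0) h.su h.su0 (fun k => ?_) (fun k => ?_) K
    (fun i => (gc_da_fu h.S h.ρ0 h.ρ1 h.sl h.sm h.hl2 i).mono_K)
    (gc_db_fu h.S h.sl h.sm h.hl1 h.hm)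
    (fun i => (Ge.Gc.zero K _).congr fun x z hz => da_fu0 h.S h.sl h.sm i x hz)
    (fun i => (gc_db_fu0 h.S h.sl h.sm h.hl1 h.hm (B := E0) rfl i).mono_K)
    (fun i => (gc_da_v h.S h.ρ0 h.ρ1 h.sl h.sm h.hl2 i).mono_K)
    (gc_db_v h.S h.ρ0 h.ρ1 h.sl h.sm h.hl2) 0
  · obtain ⟨C, -, hC⟩ := hΦ.gr' L k
    exact ⟨C, fun x z hz => hC x _ _ (hL x z hz)⟩
  · obtain ⟨C, hC0, hC⟩ := hΦ.gr' L k
    refine ⟨C * C', fun x z hz => ?_⟩
    have h1 := mvl (hΦ.fd.d k x) (a := fu l m x z) (b := fu0 l m x z)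
      (C := C * Φ 1 x (fu0 l m x z)) fun t ht => hC x t _ ?_
    · refine h1.trans ?_
      refine (mul_le_mul_of_nonneg_left (hC' x z hz) (mul_nonneg hC0 (hΦ.p1 x _))).trans
        (le_of_eq ?_)
      simp only [fN, cs]; ring
    · refine le_trans ?_ (hL x z hz)
      have := abs_sub_left_of_mem_uIcc (uIcc_comm (fu l m x z) (fu0 l m x z) ▸ ht)
      simpa using this

/-- `Φ(u₀)`: the class of the derivatives. -/
theorem Fh.slope0 {Φ : ℕ → α → ℝ → ℝ} (hΦ : SlP Φ) :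
    G.Gd K (pg (fN Φ l m) r E0) fun x z => Φ 0 x (fu0 l m x z) := by
  have nN : G.Nn (fN Φ l m) := fun x z _ => hΦ.p1 x _
  have ea : ∀ i, ∀ x, ∀ z ∈ G.Z x, G.da i (fun x z => Φ 0 x (fu0 l m x z)) x z = 0 :=
    fun i x z hz => by
      rw [da_comp (hΦ.fd.d 0) h.su0 i x hz, da_fu0 h.S h.sl h.sm i x hz, mul_zero]
  refine ⟨trivial, fun i => (Ge.Gc.zero K _).congr fun x z hz => ea i x z hz, fun i => ?_⟩
  have hz0 : ∀ k, G.O (fN Φ l m) fun x z => Φ (k + 1) x (fu0 l m x z) := fun k => by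
    obtain ⟨C, hC0, hC⟩ := hΦ.gr' 0 k
    exact ⟨C, fun x z hz => hC x _ _ (by simp)⟩
  have c1 := comp_E0 hΦ.fd.shift h.S.rr nN h.su0 (K := K) hz0
    (fun i => (Ge.Gc.zero K _).congr fun x z hz => da_fu0 h.S h.sl h.sm i x hz)
    (fun i => (gc_db_fu0 h.S h.sl h.sm h.hl1 h.hm (B := E0) rfl i).mono_K) 0
  have c2 := pg_mul (B := E0) h.S.rr nN un_nn c1.mono_K
    (gc_db_fu0 h.S h.sl h.sm h.hl1 h.hm (B := E0) rfl i).mono_K
    (hΦ.fd.sm_comp h.su0 1) (h.su0.db i) fun j _ i hi => E0_E0 j i hi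
  rw [pg_un] at c2
  exact c2.congr fun x z hz => db_comp (hΦ.fd.d 0) h.su0 i x hz

/-! ### The exponential -/

/-- `e^(u₀)`. -/
def fe0 (l m : α → F → ℝ) : α → F × F → ℝ := fun x z => Real.exp (fu0 l m x z)

theorem fe0_nn : G.Nn (fe0 l m) := fun x z _ => (Real.exp_pos _).le

theorem Fh.gc_e0 : G.Gc (K + 1) (pg (fe0 l m) r E0) (fe0 l m) :=
  comp_E0 fd_exp h.S.rr (fe0_nn h) h.su0 (fun _ => ⟨1, fun x z _ => by
      rw [one_mul]; simp only [fe0]; exact (abs_of_pos (Real.exp_pos _)).le⟩)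
    (fun i => (Ge.Gc.zero K _).congr fun x z hz => da_fu0 h.S h.sl h.sm i x hz)
    (fun i => (gc_db_fu0 h.S h.sl h.sm h.hl1 h.hm (B := E0) rfl i).mono_K) 0

theorem Fh.sm_v : G.Sm fun x z => fu l m x z - fu0 l m x z := h.su.sub h.su0

theorem Fh.sm_e0 : G.Sm (fe0 l m) := fd_exp.sm_comp h.su0 0

/-- `e^(u - u₀)`. -/
def fev (l m : α → F → ℝ) : α → F × F → ℝ := fun x z => Real.exp (fu l m x z - fu0 l m x z)

theorem Fh.sm_ev : G.Sm (fev l m) := fd_exp.sm_comp h.sm_v 0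

theorem Fh.gc_vb (i : ι) : G.Gc K (pg un r E0) (G.db i fun x z => fu l m x z - fu0 l m x z) := by
  have c := gc_db_v h.S h.ρ0 h.ρ1 h.sl h.sm h.hl2 i
  refine pg_mono h.S.rr (cs_nn h.S h.ρ0) c ⟨1, fun x z _ => by simpa [cs, un] using h.ρ1 x⟩
    fun j _ => ?_
  rw [O2_eq]
  match j with
  | 0 => exact Nat.zero_le _
  | 1 => exact le_rfl
  | j + 2 => exact Nat.zero_le _

theorem Fh.gc_va (i : ι) : G.Gc K (pg un r O1) (G.da i fun x z => fu l m x z - fu0 l m x z) :=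
  pg_mono h.S.rr (cs_nn h.S h.ρ0) (gc_da_v h.S h.ρ0 h.ρ1 h.sl h.sm h.hl2 i).mono_K
    ⟨1, fun x z _ => by simpa [cs, un] using h.ρ1 x⟩ fun j _ => le_rfl

theorem Fh.gc_ev : G.Gc (K + 1) (pg un r E0) (fev l m) := by
  obtain ⟨L, hL0, hL⟩ := h.v1
  exact comp_E0 fd_exp h.S.rr un_nn h.sm_v (fun _ => ⟨Real.exp L, fun x z hz => by
      rw [abs_of_pos (Real.exp_pos _)]
      simp only [un, mul_one]
      exact Real.exp_le_exp.2 ((le_abs_self _).trans (hL x z hz))⟩)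
    (h.gc_va) (h.gc_vb) 0

/-- `e^(u - u₀) - 1 = O(r²)`. -/
theorem Fh.gc_ev1 : G.Gc (K + 1) (pg un r O2) fun x z => fev l m x z - 1 := by
  obtain ⟨L, hL0, hL⟩ := h.v1
  obtain ⟨C', hC'0, hC'⟩ := h.v0
  have z1 : ∀ i, ∀ x z, G.da i (fun (_ : α) (_ : F × F) => (0 : ℝ)) x z = 0 := fun i x z => by
    show fderiv ℝ (fun _ => (0 : ℝ)) z _ = 0
    simp
  have z2 : ∀ i, ∀ x z, G.db i (fun (_ : α) (_ : F × F) => (0 : ℝ)) x z = 0 := fun i x z => by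
    show fderiv ℝ (fun _ => (0 : ℝ)) z _ = 0
    simp
  have c := diff_O2 (K := K) (H := fun _ _ t => Real.exp t) (A := un) (k := cs ρi)
    (u := fun x z => fu l m x z - fu0 l m x z) (w := fun _ _ => 0)
    fd_exp h.S.rr un_nn (cs_nn h.S h.ρ0) h.sm_v
    (Ge.Sm.const fun _ => 0) (fun _ => ⟨Real.exp L, fun x z hz => by
      rw [abs_of_pos (Real.exp_pos _)]
      simp only [un, mul_one]
      exact Real.exp_le_exp.2 ((le_abs_self _).trans (hL x z hz))⟩)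
    (fun _ => ⟨Real.exp L * C', fun x z hz => by
      have h1 := mvl (f := Real.exp) (f' := Real.exp) (fun t => Real.hasDerivAt_exp t)
        (a := fu l m x z - fu0 l m x z) (b := 0) (C := Real.exp L) fun t ht => ?_
      · refine h1.trans ?_
        rw [sub_zero]
        refine (mul_le_mul_of_nonneg_left (hC' x z hz) (Real.exp_pos _).le).trans (le_of_eq ?_)
        simp only [un, cs]; ring
      · rw [abs_of_pos (Real.exp_pos _)]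
        refine Real.exp_le_exp.2 ?_
        have h2 := abs_le.1 (hL x z hz)
        rcases le_total (fu l m x z - fu0 l m x z) 0 with h3 | h3
        · rw [uIcc_of_le h3] at ht
          exact ht.2.trans hL0
        · rw [uIcc_of_ge h3] at ht
          exact ht.2.trans h2.2⟩)
    (h.gc_va) (h.gc_vb)
    (fun i => (Ge.Gc.zero K _).congr fun x z _ => z1 i x z)
    (fun i => (Ge.Gc.zero K _).congr fun x z _ => z2 i x z)
    (fun i => ((gc_da_v h.S h.ρ0 h.ρ1 h.sl h.sm h.hl2 i).mono_K).congr fun x z hz => by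
      rw [da_sub h.sm_v (Ge.Sm.const fun _ => 0) i x hz, z1, sub_zero])
    (fun i => (gc_db_v h.S h.ρ0 h.ρ1 h.sl h.sm h.hl2 i).congr fun x z hz => by
      rw [db_sub h.sm_v (Ge.Sm.const fun _ => 0) i x hz, z2, sub_zero]) 0
  have c' := c.congr (f' := fun x z => fev l m x z - 1) fun x z _ => by simp [fev]
  exact pg_mono h.S.rr (fun x z _ => mul_nonneg zero_le_one (h.ρ0 x)) c'
    ⟨1, fun x z _ => by simpa [cs, un] using h.ρ1 x⟩ fun j _ => le_rfl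

end

end Vale.Agent.P088.R2.H968.B
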