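import Vale.Agent.P088.R2.H968.B.Asm2

/-!
# P088: the true weight near the diagonal, in the graded classes (3): `ρ²`, `P(ρ²)`, the differences
-/

open Set Filter
open scoped ContDiff Topology

noncomputable section

set_option linter.unusedSectionVars false

namespace Vale.Agent.P088.R2.H968.B

open Vale.Agent.P088.R2.H464.B

variable {α ι F : Type*} [Fintype ι] [DecidableEq ι] [NormedAddCommGroup F] [NormedSpace ℝ F]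
  {G : Ge α ι (F × F)} {M : α → ι → F} {U : α → Set F} {hU : ∀ x, IsOpen (U x)}
  {r : α → F × F → ℝ}

/-! ## The variables `q` -/

/-- The coordinates of `x - y` in the frame. -/
structure Qt (G : Ge α ι (F × F)) (r : α → F × F → ℝ) (qt : ι → α → F × F → ℝ) : Prop where
  sq : ∀ i, G.Sm (qt i)
  a : ∀ i j, ∀ x, ∀ z ∈ G.Z x, G.da i (qt j) x z = if i = j then 1 else 0
  b : ∀ i j, ∀ x, ∀ z ∈ G.Z x, G.db i (qt j) x z = 0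
  le : ∀ i, ∀ x, ∀ z ∈ G.Z x, |qt i x z| ≤ r x z

variable {qt : ι → α → F × F → ℝ}

theorem Qt.gc (hr : Rr G r) (Q : Qt G r qt) (K : ℕ) (j : ι) : G.Gc K (pg un r O1) (qt j) := by
  have h0 : G.O (pg un r O1 0) (qt j) := ⟨1, fun x z hz => by
    simpa [pg, un, O1, x3] using Q.le j x z hz⟩
  cases K with
  | zero => exact h0
  | succ K =>
    refine ⟨h0, fun i => ?_, fun i => ?_⟩
    · refine (Ge.Gc.const K _ (fun _ => if i = j then (1 : ℝ) else 0) ⟨1, fun x z _ => ?_⟩).congr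
        fun x z hz => Q.a i j x z hz
      simp only [pg, un, O1, x3, pow_zero, mul_one]
      split_ifs <;> simp
    · exact (Ge.Gc.zero K _).congr fun x z hz => Q.b i j x z hz

theorem Qt.gc2 (hr : Rr G r) (Q : Qt G r qt) (K : ℕ) (i j : ι) :
    G.Gc K (pg un r O2) fun x z => qt i x z * qt j x z := by
  have c := pg_mul (B := O2) hr un_nn un_nn (Q.gc hr K i) (Q.gc hr K j) (Q.sq i) (Q.sq j)
    fun j _ i _ => by rw [O1_eq, O1_eq, O2_eq]; omega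
  rwa [pg_un] at c

/-- `|q|²`. -/
def fq2 (qt : ι → α → F × F → ℝ) : α → F × F → ℝ := fun x z => ∑ i, qt i x z * qt i x z

theorem Qt.gq (hr : Rr G r) (Q : Qt G r qt) (K : ℕ) : G.Gc K (pg un r O2) (fq2 qt) :=
  gc_sum (fun i => Q.gc2 hr K i i) fun i => (Q.sq i).mul (Q.sq i)

theorem Qt.sq2 (Q : Qt G r qt) : G.Sm (fq2 qt) := Ge.Sm.sum _ fun i _ => (Q.sq i).mul (Q.sq i)

/-! ## The metric part -/

/-- `Γ_ij(p) q_i q_j`. -/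
def fk (Γ : ι → ι → α → F → ℝ) (qt : ι → α → F × F → ℝ) : α → F × F → ℝ := fun x z =>
  ∑ i, ∑ j, fM (Γ i j) x z * (qt i x z * qt j x z)

/-- The profile of a function of the midpoint. -/
def Bm : ℕ → ℕ
  | 0 => 0
  | _ + 1 => 2

section met

variable (S : Sl2 G M U hU r) (Q : Qt G r qt) {κ : α → ℝ} (κ0 : ∀ x, 0 ≤ κ x)
  {Γ : ι → ι → α → F → ℝ} (sΓ : ∀ i j, (G1 M U hU).Sm (Γ i j)) {K : ℕ}
  (hΓ : ∀ i j, (G1 M U hU).Gc K (cp κ) (Γ i j))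
include S Q κ0 sΓ hΓ

theorem gc_fk : G.Gc K (pg (cs κ) r O2) (fk Γ qt) := by
  refine gc_sum (fun i => gc_sum (fun j => ?_) fun j => ?_) fun i => Ge.Sm.sum _ fun j _ => ?_
  · have c := pg_mul (B := O2) S.rr (cs_nn S κ0) un_nn
      (gc_M S κ0 (B := Bm) rfl (sΓ i j) (hΓ i j)) (Q.gc2 S.rr K i j) (sm_M S (sΓ i j))
      ((Q.sq i).mul (Q.sq j)) fun j _ i hi => by
        match i with
        | 0 => simp [Bm]
        | i + 1 => rw [O2_eq, O2_eq]; show _ ≤ 2 + _; omega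
    rwa [pg_un] at c
  · exact (sm_M S (sΓ i j)).mul ((Q.sq i).mul (Q.sq j))
  · exact (sm_M S (sΓ i j)).mul ((Q.sq i).mul (Q.sq j))

omit κ0 hΓ in
theorem sm_fk : G.Sm (fk Γ qt) := Ge.Sm.sum _ fun i _ => Ge.Sm.sum _ fun j _ =>
  (sm_M S (sΓ i j)).mul ((Q.sq i).mul (Q.sq j))

end met

/-- `ρ² = |q|² + Γ_ij(p) q_i q_j`. -/
def fρ (Γ : ι → ι → α → F → ℝ) (qt : ι → α → F × F → ℝ) : α → F × F → ℝ := fun x z =>
  fq2 qt x z + fk Γ qt x z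

/-- The profile: a function `P` of `s = r²` with `P(0) = 0`, `P'(0) = 1/2`, and its derivatives. -/
structure PrP (P : ℕ → ℝ → ℝ) : Prop where
  sm : ∀ k, ContDiff ℝ ∞ (P k)
  d : ∀ k t, HasDerivAt (P k) (P (k + 1) t) t
  z0 : P 0 0 = 0
  z1 : P 1 0 = 1 / 2

theorem PrP.bd {P : ℕ → ℝ → ℝ} (h : PrP P) (k : ℕ) (L : ℝ) :
    ∃ C, 0 ≤ C ∧ ∀ s, |s| ≤ L → |P k s| ≤ C := by
  obtain ⟨C, hC⟩ := (isCompact_Icc (a := -L) (b := L)).exists_bound_of_continuousOn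
    (h.sm k).continuous.continuousOn
  refine ⟨|C|, abs_nonneg C, fun s hs => ?_⟩
  have := hC s (abs_le.1 hs)
  rw [Real.norm_eq_abs] at this
  exact this.trans (le_abs_self C)

theorem uIcc_abs {s t L : ℝ} (hs : |s| ≤ L) (ht : t ∈ uIcc s 0) : |t| ≤ L ∧ |t| ≤ |s| := by
  have h : |t| ≤ |s| := by
    rcases le_total s 0 with h3 | h3
    · rw [uIcc_of_le h3] at ht
      rw [abs_of_nonpos ht.2, abs_of_nonpos h3]; linarith [ht.1]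
    · rw [uIcc_of_ge h3] at ht
      rw [abs_of_nonneg ht.1, abs_of_nonneg h3]; exact ht.2
  exact ⟨h.trans hs, h⟩

/-- `|P(s)| ≤ C |s|`. -/
theorem PrP.b0 {P : ℕ → ℝ → ℝ} (h : PrP P) (L : ℝ) :
    ∃ C, 0 ≤ C ∧ ∀ s, |s| ≤ L → |P 0 s| ≤ C * |s| := by
  obtain ⟨C, hC0, hC⟩ := h.bd 1 L
  refine ⟨C, hC0, fun s hs => ?_⟩
  have h1 := mvl (h.d 0) (a := s) (b := 0) (C := C) fun t ht => hC t (uIcc_abs hs ht).1
  rwa [h.z0, sub_zero, sub_zero] at h1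

/-- `|P'(s) - 1/2| ≤ C |s|`. -/
theorem PrP.b1 {P : ℕ → ℝ → ℝ} (h : PrP P) (L : ℝ) :
    ∃ C, 0 ≤ C ∧ ∀ s, |s| ≤ L → |P 1 s - 1 / 2| ≤ C * |s| := by
  obtain ⟨C, hC0, hC⟩ := h.bd 2 L
  refine ⟨C, hC0, fun s hs => ?_⟩
  have h1 := mvl (h.d 1) (a := s) (b := 0) (C := C) fun t ht => hC t (uIcc_abs hs ht).1
  rwa [h.z1, sub_zero] at h1

/-- `|P(s) - s/2| ≤ C s²`. -/
theorem PrP.b2 {P : ℕ → ℝ → ℝ} (h : PrP P) (L : ℝ) :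
    ∃ C, 0 ≤ C ∧ ∀ s, |s| ≤ L → |P 0 s - 1 / 2 * s| ≤ C * |s| ^ 2 := by
  obtain ⟨C, hC0, hC⟩ := h.b1 L
  refine ⟨C, hC0, fun s hs => ?_⟩
  have hd : ∀ t, HasDerivAt (fun t => P 0 t - 1 / 2 * t) (P 1 t - 1 / 2) t := fun t => by
    have h2 := (h.d 0 t).fun_sub ((hasDerivAt_id t).const_mul (1 / 2 : ℝ))
    rw [mul_one] at h2
    exact h2
  have h1 := mvl hd (a := s) (b := 0) (C := C * |s|) fun t ht =>
    (hC t (uIcc_abs hs ht).1).trans (mul_le_mul_of_nonneg_left (uIcc_abs hs ht).2 hC0)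
  rw [h.z0, mul_zero, sub_zero, sub_zero, sub_zero] at h1
  refine h1.trans (le_of_eq ?_)
  ring

/-- The family `P`, as a family of functions of one variable. -/
def fP1 (P : ℕ → ℝ → ℝ) : ℕ → α → ℝ → ℝ := fun k _ => P k

theorem PrP.fd {P : ℕ → ℝ → ℝ} (h : PrP P) : Fd1 (fP1 (α := α) P) :=
  ⟨fun k _ => h.sm k, fun k _ t => h.d k t⟩

/-- The family `P(s) - s/2`. -/
def fT1 (P : ℕ → ℝ → ℝ) : ℕ → α → ℝ → ℝ
  | 0 => fun _ s => P 0 s - 1 / 2 * s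
  | 1 => fun _ s => P 1 s - 1 / 2
  | k + 2 => fun _ => P (k + 2)

theorem PrP.fdT {P : ℕ → ℝ → ℝ} (h : PrP P) : Fd1 (fT1 (α := α) P) where
  sm k x := by
    match k with
    | 0 => exact (h.sm 0).sub (contDiff_const.mul contDiff_id)
    | 1 => exact (h.sm 1).sub contDiff_const
    | k + 2 => exact h.sm (k + 2)
  d k x t := by
    match k with
    | 0 =>
      have h2 := (h.d 0 t).fun_sub ((hasDerivAt_id t).const_mul (1 / 2 : ℝ))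
      rw [mul_one] at h2
      exact h2
    | 1 => exact (h.d 1 t).sub_const _
    | k + 2 => exact h.d (k + 2) t

section main

variable {ρi κ : α → ℝ} {l m : α → F → ℝ} {K : ℕ} (h : Fh G M U hU r ρi l m K) (Q : Qt G r qt)
  (κ0 : ∀ x, 0 ≤ κ x) (κ1 : ∀ x, κ x ≤ 1) {Γ : ι → ι → α → F → ℝ}
  (sΓ : ∀ i j, (G1 M U hU).Sm (Γ i j)) (hΓ : ∀ i j, (G1 M U hU).Gc (K + 1) (cp κ) (Γ i j))
  {P : ℕ → ℝ → ℝ} (hP : PrP P)
include h Q sΓ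

theorem sm_ρ : G.Sm (fρ Γ qt) := Q.sq2.add (sm_fk h.S Q sΓ)

include κ0 κ1 hΓ

theorem gc_ρ : G.Gc (K + 1) (pg un r O2) (fρ Γ qt) := by
  refine (Q.gq h.S.rr (K + 1)).add ?_ Q.sq2 (sm_fk h.S Q sΓ)
  exact pg_mono h.S.rr (cs_nn h.S κ0) (gc_fk h.S Q κ0 sΓ hΓ)
    ⟨1, fun x z _ => by simpa [cs, un] using κ1 x⟩ fun j _ => le_rfl

theorem ρ_le : ∃ C, 0 ≤ C ∧ ∀ x, ∀ z ∈ G.Z x, |fρ Γ qt x z| ≤ C * r x z ^ 2 := by
  obtain ⟨C, hC0, hC⟩ := (gc_ρ h Q κ0 κ1 sΓ hΓ).zero_of.nn (pg_nn h.S.rr un_nn _ 0)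
  refine ⟨C, hC0, fun x z hz => ?_⟩
  simpa [pg, un, O2, x3] using hC x z hz

theorem ρ_le1 : ∃ C, 0 ≤ C ∧ ∀ x, ∀ z ∈ G.Z x, |fρ Γ qt x z| ≤ C := by
  obtain ⟨C, hC0, hC⟩ := ρ_le h Q κ0 κ1 sΓ hΓ
  refine ⟨C, hC0, fun x z hz => (hC x z hz).trans ?_⟩
  have h1 := pow_le_one₀ (n := 2) (h.S.rr.r0 x z hz) (h.S.rr.r1 x z hz)
  calc C * r x z ^ 2 ≤ C * 1 := mul_le_mul_of_nonneg_left h1 hC0
    _ = C := mul_one C

theorem gc_ρa (i : ι) : G.Gc K (pg un r O1) (G.da i (fρ Γ qt)) := by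
  have c := (gc_ρ h Q κ0 κ1 sΓ hΓ).2.1 i
  exact c.mono (fun j _ => pg_nn h.S.rr un_nn O2 (j + 1)) fun j _ => ⟨1, fun x z _ => by
    simp [pg, O2_succ]⟩

theorem gc_ρb (i : ι) : G.Gc K (pg un r O2) (G.db i (fρ Γ qt)) := (gc_ρ h Q κ0 κ1 sΓ hΓ).2.2 i

include hP

/-- `P(ρ²) = O(r²)`. -/
theorem gc_P0 : G.Gc (K + 1) (pg un r O2) fun x z => P 0 (fρ Γ qt x z) := by
  obtain ⟨L, hL0, hL⟩ := ρ_le1 h Q κ0 κ1 sΓ hΓ
  obtain ⟨C', hC'0, hC'⟩ := ρ_le h Q κ0 κ1 sΓ hΓ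
  refine comp_O2 (H := fP1 P) hP.fd h.S.rr (sm_ρ h Q sΓ) (fun k => ?_) (gc_ρa h Q κ0 κ1 sΓ hΓ)
    (gc_ρb h Q κ0 κ1 sΓ hΓ) 0
  match k with
  | 0 =>
    obtain ⟨C, hC0, hC⟩ := hP.b0 L
    refine ⟨C * C', fun x z hz => (hC _ (hL x z hz)).trans ?_⟩
    rw [mul_assoc]
    exact mul_le_mul_of_nonneg_left (hC' x z hz) hC0
  | k + 1 =>
    obtain ⟨C, hC0, hC⟩ := hP.bd (k + 1) L
    refine ⟨C, fun x z hz => ?_⟩
    have h1 := hC _ (hL x z hz)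
    show |P (k + 1) (fρ Γ qt x z)| ≤ C * r x z ^ 0
    rwa [pow_zero, mul_one]

/-- `P(ρ²) - ρ²/2 = O(r⁴)`. -/
theorem gc_T0 : G.Gc (K + 1) (pg un r O4) fun x z => P 0 (fρ Γ qt x z) - 1 / 2 * fρ Γ qt x z := by
  obtain ⟨L, hL0, hL⟩ := ρ_le1 h Q κ0 κ1 sΓ hΓ
  obtain ⟨C', hC'0, hC'⟩ := ρ_le h Q κ0 κ1 sΓ hΓ
  refine comp_O4 (H := fT1 P) hP.fdT h.S.rr (sm_ρ h Q sΓ) (fun k => ?_) (gc_ρa h Q κ0 κ1 sΓ hΓ)
    (gc_ρb h Q κ0 κ1 sΓ hΓ) 0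
  match k with
  | 0 =>
    obtain ⟨C, hC0, hC⟩ := hP.b2 L
    refine ⟨C * C' ^ 2, fun x z hz => (hC _ (hL x z hz)).trans ?_⟩
    have h1 : |fρ Γ qt x z| ^ 2 ≤ (C' * r x z ^ 2) ^ 2 :=
      pow_le_pow_left₀ (abs_nonneg _) (hC' x z hz) 2
    refine (mul_le_mul_of_nonneg_left h1 hC0).trans (le_of_eq ?_)
    show C * (C' * r x z ^ 2) ^ 2 = C * C' ^ 2 * r x z ^ 4
    ring
  | 1 =>
    obtain ⟨C, hC0, hC⟩ := hP.b1 L
    refine ⟨C * C', fun x z hz => (hC _ (hL x z hz)).trans ?_⟩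
    rw [mul_assoc]
    exact mul_le_mul_of_nonneg_left (hC' x z hz) hC0
  | k + 2 =>
    obtain ⟨C, hC0, hC⟩ := hP.bd (k + 2) L
    refine ⟨C, fun x z hz => ?_⟩
    have h1 := hC _ (hL x z hz)
    show |P (k + 2) (fρ Γ qt x z)| ≤ C * r x z ^ 0
    rwa [pow_zero, mul_one]

omit κ0 κ1 hΓ in
theorem sm_P0 : G.Sm fun x z => P 0 (fρ Γ qt x z) := hP.fd.sm_comp (sm_ρ h Q sΓ) 0

/-- `e^(u₀) [(e^v - 1) P(ρ²) + (P(ρ²) - ρ²/2)]`. -/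
theorem gc_II : G.Gc (K + 1) (pg (fe0 l m) r O4) fun x z => fe0 l m x z *
    ((fev l m x z - 1) * P 0 (fρ Γ qt x z) + (P 0 (fρ Γ qt x z) - 1 / 2 * fρ Γ qt x z)) := by
  have s1 : G.Sm fun x z => fev l m x z - 1 := h.sm_ev.sub (Ge.Sm.const fun _ => 1)
  have s2 := sm_P0 h Q sΓ hP
  have s3 : G.Sm fun x z => P 0 (fρ Γ qt x z) - 1 / 2 * fρ Γ qt x z :=
    s2.sub ((Ge.Sm.const fun _ => 1 / 2).mul (sm_ρ h Q sΓ))
  have c1 := pg_mul (B := O4) h.S.rr un_nn un_nn h.gc_ev1 (gc_P0 h Q κ0 κ1 sΓ hΓ hP) s1 s2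
    fun j _ i hi => O2_O2 j i hi
  rw [pg_un] at c1
  have c2 := c1.add (gc_T0 h Q κ0 κ1 sΓ hΓ hP) (s1.mul s2) s3
  have c3 := pg_mul (B := O4) h.S.rr (fe0_nn h) un_nn h.gc_e0 c2 h.sm_e0 ((s1.mul s2).add s3)
    fun j _ i hi => E0_O4 j i hi
  rwa [pg_un] at c3

omit hP in
/-- `e^(u₀) Γ_ij(p) q_i q_j / 2`. -/
theorem gc_III : G.Gc (K + 1) (pg (fun x z => fe0 l m x z * cs κ x z) r O2) fun x z =>
    fe0 l m x z * (1 / 2 * fk Γ qt x z) :=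
  pg_mul (B := O2) h.S.rr (fe0_nn h) (cs_nn h.S κ0) h.gc_e0
    (pg_cmul h.S.rr (cs_nn h.S κ0) (gc_fk h.S Q κ0 sΓ hΓ) (sm_fk h.S Q sΓ) (1 / 2)) h.sm_e0
    ((Ge.Sm.const fun _ => 1 / 2).mul (sm_fk h.S Q sΓ)) fun j _ i hi => E0_O2 j i hi

/-- `e^u P(ρ²)`. -/
theorem gc_V : G.Gc (K + 1) (pg (fe0 l m) r O2) fun x z => fe0 l m x z *
    (fev l m x z * P 0 (fρ Γ qt x z)) := by
  have s2 := sm_P0 h Q sΓ hP
  have c1 := pg_mul (B := O2) h.S.rr un_nn un_nn h.gc_ev (gc_P0 h Q κ0 κ1 sΓ hΓ hP) h.sm_ev s2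
    fun j _ i hi => E0_O2 j i hi
  rw [pg_un] at c1
  have c3 := pg_mul (B := O2) h.S.rr (fe0_nn h) un_nn h.gc_e0 c1 h.sm_e0 (h.sm_ev.mul s2)
    fun j _ i hi => E0_O2 j i hi
  rwa [pg_un] at c3

end main

end Vale.Agent.P088.R2.H968.B
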