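import Vale.Agent.P088.R2.H968.B.Asm3

/-!
# P088: the true weight against the model near the diagonal: the fields `hW`, `hD` of `Hy`
-/

open Set Filter
open scoped ContDiff Topology

noncomputable section

set_option linter.unusedSectionVars false

namespace Vale.Agent.P088.R2.H968.B

open Vale.Agent.P088.R2.H464.B

variable {α ι F : Type*} [Fintype ι] [DecidableEq ι] [NormedAddCommGroup F] [NormedSpace ℝ F]
  {G : Ge α ι (F × F)} {M : α → ι → F} {U : α → Set F} {hU : ∀ x, IsOpen (U x)}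
  {r : α → F × F → ℝ} {qt : ι → α → F × F → ℝ}

/-- Constants do not matter for the derivatives. -/
theorem gd_const {E : Type*} [NormedAddCommGroup E] [NormedSpace ℝ E] {G : Ge α ι E}
    {p : ℕ → α → E → ℝ} {K : ℕ} {f : α → E → ℝ} (c : α → ℝ) (h : G.Gd K p f) (sf : G.Sm f) :
    G.Gd K p fun x z => c x + f x z := by
  refine ⟨trivial, fun i => (h.2.1 i).congr fun x z hz => ?_,
    fun i => (h.2.2 i).congr fun x z hz => ?_⟩
  · rw [da_add (Ge.Sm.const c) sf i x hz]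
    show fderiv ℝ (fun _ => c x) z _ + _ = _
    simp
  · rw [db_add (Ge.Sm.const c) sf i x hz]
    show fderiv ℝ (fun _ => c x) z _ + _ = _
    simp

/-- From a class with a profile `A r^(B j)` to an arbitrary profile, for the derivatives. -/
theorem pg_toD {E : Type*} [NormedAddCommGroup E] [NormedSpace ℝ E] {G : Ge α ι E}
    {r A f : α → E → ℝ} {B : ℕ → ℕ} {K : ℕ} {p : ℕ → α → E → ℝ} (hr : Rr G r) (hA : G.Nn A)
    (hf : G.Gd K (pg A r B) f)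
    (h : ∀ j ≤ K + 1, ∃ C, ∀ x, ∀ z ∈ G.Z x, A x z * r x z ^ B j ≤ C * p j x z) : G.Gd K p f :=
  hf.mono (fun j _ => pg_nn hr hA B j) h

section

variable {ρi κ : α → ℝ} {l m : α → F → ℝ} (h : Fh G M U hU r ρi l m 3) (Q : Qt G r qt)
  (κ0 : ∀ x, 0 ≤ κ x) (κ1 : ∀ x, κ x ≤ 1) {Γ : ι → ι → α → F → ℝ}
  (sΓ : ∀ i j, (G1 M U hU).Sm (Γ i j)) (hΓ : ∀ i j, (G1 M U hU).Gc 4 (cp κ) (Γ i j))
  {P : ℕ → ℝ → ℝ} (hP : PrP P) {Φ : ℕ → α → ℝ → ℝ} (hΦ : SlP Φ)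
  {e t δ W W₀ : α → F × F → ℝ} (sz : Sz G e r t δ)
  (he : ∀ x, ∀ z ∈ G.Z x, e x z = fe0 l m x z)
  (hν : ∃ C, ∀ x, ∀ z ∈ G.Z x, fN Φ l m x z ≤ C * (e x z * r x z * t x z))
  (hκ : ∃ C, ∀ x, ∀ z ∈ G.Z x, κ x ≤ C * δ x z)
  (hr : ∃ C, ∀ x, ∀ z ∈ G.Z x, r x z ≤ C * δ x z)
  {c₁ c₀ : α → ℝ} (hW : ∀ x, ∀ z ∈ G.Z x, W x z = c₁ x +
    (Φ 0 x (fu l m x z) + Real.exp (fu l m x z) * P 0 (fρ Γ qt x z)))
  (hW₀ : ∀ x, ∀ z ∈ G.Z x, W₀ x z = c₀ x +
    (Φ 0 x (fu0 l m x z) + 1 / 2 * (e x z * fq2 qt x z)))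
include h Q sΓ hP hΦ

theorem smW (hW : ∀ x, ∀ z ∈ G.Z x, W x z = c₁ x +
    (Φ 0 x (fu l m x z) + Real.exp (fu l m x z) * P 0 (fρ Γ qt x z))) : G.Sm W :=
  ((Ge.Sm.const c₁).add ((hΦ.fd.sm_comp h.su 0).add
    ((fd_exp.sm_comp h.su 0).mul (sm_P0 h Q sΓ hP)))).congr hW

omit sΓ hP in
theorem smW₀ (he : ∀ x, ∀ z ∈ G.Z x, e x z = fe0 l m x z) (hW₀ : ∀ x, ∀ z ∈ G.Z x,
    W₀ x z = c₀ x + (Φ 0 x (fu0 l m x z) + 1 / 2 * (e x z * fq2 qt x z))) : G.Sm W₀ :=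
  ((Ge.Sm.const c₀).add ((hΦ.fd.sm_comp h.su0 0).add
    ((Ge.Sm.const fun _ => 1 / 2).mul (h.sm_e0.mul Q.sq2)))).congr fun x z hz => by
      rw [hW₀ x z hz, he x z hz]

/-- The three terms of `W - Φ(u₀)`. -/
theorem dec1 (x : α) (z : F × F) : Φ 0 x (fu l m x z) + Real.exp (fu l m x z) * P 0 (fρ Γ qt x z) =
    Φ 0 x (fu0 l m x z) + ((Φ 0 x (fu l m x z) - Φ 0 x (fu0 l m x z)) +
      fe0 l m x z * (fev l m x z * P 0 (fρ Γ qt x z))) := by
  have e1 : Real.exp (fu l m x z) = fe0 l m x z * fev l m x z := by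
    unfold fe0 fev
    rw [← Real.exp_add]
    congr 1; ring
  rw [e1]; ring

/-- The terms of `W - W₀`. -/
theorem dec2 (x : α) (z : F × F) : (Φ 0 x (fu l m x z) + Real.exp (fu l m x z) *
    P 0 (fρ Γ qt x z)) - (Φ 0 x (fu0 l m x z) + 1 / 2 * (fe0 l m x z * fq2 qt x z)) =
    (Φ 0 x (fu l m x z) - Φ 0 x (fu0 l m x z)) +
      (fe0 l m x z * ((fev l m x z - 1) * P 0 (fρ Γ qt x z) +
        (P 0 (fρ Γ qt x z) - 1 / 2 * fρ Γ qt x z)) +
      fe0 l m x z * (1 / 2 * fk Γ qt x z)) := by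
  have e1 : Real.exp (fu l m x z) = fe0 l m x z * fev l m x z := by
    unfold fe0 fev
    rw [← Real.exp_add]
    congr 1; ring
  have e2 : fρ Γ qt x z = fq2 qt x z + fk Γ qt x z := rfl
  rw [e1, e2]; ring

include κ0 κ1 hΓ sz he hν hW

/-- **The true weight.** -/
theorem gdW : G.Gd 3 (ms e r t δ 0 1 (x3 1 1 0) (x3 1 0 0)) W := by
  have hr' := h.S.rr
  obtain ⟨Cν, hν⟩ := hν
  have nN : G.Nn (fN Φ l m) := fun x z _ => hΦ.p1 x _
  have nNρ : G.Nn fun x z => fN Φ l m x z * cs ρi x z := fun x z hz =>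
    mul_nonneg (nN x z hz) (h.ρ0 x)
  have Cν0 : ∀ x, ∀ z ∈ G.Z x, fN Φ l m x z ≤ |Cν| * (e x z * r x z * t x z) := fun x z hz => by
    have h0 : 0 ≤ e x z * r x z * t x z := mul_nonneg (mul_nonneg (sz.e0 x z hz).le
      (sz.r0 x z hz).le) ((sz.r0 x z hz).le.trans (sz.rt x z hz))
    exact (hν x z hz).trans (mul_le_mul_of_nonneg_right (le_abs_self _) h0)
  have b1 : ∀ x, ∀ z ∈ G.Z x, fN Φ l m x z ≤ |Cν| * (e x z * r x z) := fun x z hz => by
    refine (Cν0 x z hz).trans (mul_le_mul_of_nonneg_left ?_ (abs_nonneg _))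
    exact mul_le_of_le_one_right (mul_nonneg (sz.e0 x z hz).le (sz.r0 x z hz).le) (sz.t1 x z hz)
  have b2 : ∀ x, ∀ z ∈ G.Z x, fN Φ l m x z ≤ |Cν| * e x z := fun x z hz => by
    refine (b1 x z hz).trans (mul_le_mul_of_nonneg_left ?_ (abs_nonneg _))
    exact mul_le_of_le_one_right (sz.e0 x z hz).le (hr'.r1 x z hz)
  -- `Φ(u₀)`
  have c0 : G.Gd 3 (ms e r t δ 0 1 (x3 1 1 0) (x3 1 0 0)) fun x z => Φ 0 x (fu0 l m x z) := by
    refine pg_toD hr' nN (h.slope0 hΦ) fun j _ => ⟨|Cν|, fun x z hz => ?_⟩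
    match j with
    | 0 =>
      simp only [E0, x3, ms, mn, pow_zero, pow_one, mul_one, one_mul]
      exact Cν0 x z hz
    | 1 =>
      simp only [E0, x3, ms, mn, pow_zero, pow_one, mul_one, one_mul]
      rw [← mul_assoc]
      exact mul_le_mul_of_nonneg_right (b2 x z hz) (hr'.r0 x z hz)
    | j + 2 =>
      simp only [E0, x3, ms, mn, pow_zero, pow_one, mul_one, one_mul]
      exact b2 x z hz
  -- `Φ(u) - Φ(u₀)`
  have c1 : G.Gd 3 (ms e r t δ 0 1 (x3 1 1 0) (x3 1 0 0))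
      fun x z => Φ 0 x (fu l m x z) - Φ 0 x (fu0 l m x z) := by
    refine pg_toD hr' nNρ (h.slope hΦ).gd fun j _ => ⟨|Cν|, fun x z hz => ?_⟩
    have r0 := hr'.r0 x z hz
    have r1 := hr'.r1 x z hz
    have h1 : fN Φ l m x z * cs ρi x z ≤ fN Φ l m x z :=
      mul_le_of_le_one_right (nN x z hz) (h.ρ1 x)
    match j with
    | 0 =>
      simp only [O2, x3, ms, mn, pow_zero, pow_one, mul_one, one_mul]
      refine le_trans ?_ (Cν0 x z hz)
      refine (mul_le_of_le_one_right (nNρ x z hz) (pow_le_one₀ r0 r1)).trans h1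
    | 1 =>
      simp only [O2, x3, ms, mn, pow_zero, pow_one, mul_one, one_mul]
      rw [← mul_assoc]
      exact mul_le_mul_of_nonneg_right (h1.trans (b2 x z hz)) r0
    | j + 2 =>
      simp only [O2, x3, ms, mn, pow_zero, pow_one, mul_one, one_mul]
      exact h1.trans (b2 x z hz)
  -- `e^u P`
  have c2 : G.Gd 3 (ms e r t δ 0 1 (x3 1 1 0) (x3 1 0 0))
      fun x z => fe0 l m x z * (fev l m x z * P 0 (fρ Γ qt x z)) := by
    refine pg_toD hr' (fe0_nn h) (gc_V h Q κ0 κ1 sΓ hΓ hP).gd fun j _ => ⟨1, fun x z hz => ?_⟩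
    have r0 := hr'.r0 x z hz
    rw [← he x z hz]
    match j with
    | 0 =>
      simp only [O2, x3, ms, mn, pow_zero, pow_one, mul_one, one_mul]
      rw [pow_two, ← mul_assoc]
      exact mul_le_mul_of_nonneg_left (sz.rt x z hz) (mul_nonneg (sz.e0 x z hz).le r0)
    | 1 => simp [O2, x3, ms, mn]
    | j + 2 => simp [O2, x3, ms, mn]
  have s0 : G.Sm fun x z => Φ 0 x (fu0 l m x z) := hΦ.fd.sm_comp h.su0 0
  have s1 : G.Sm fun x z => Φ 0 x (fu l m x z) - Φ 0 x (fu0 l m x z) :=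
    (hΦ.fd.sm_comp h.su 0).sub s0
  have s2 : G.Sm fun x z => fe0 l m x z * (fev l m x z * P 0 (fρ Γ qt x z)) :=
    h.sm_e0.mul (h.sm_ev.mul (sm_P0 h Q sΓ hP))
  refine (gd_const c₁ (c0.add (c1.add c2 s1 s2) s0 (s1.add s2)) (s0.add (s1.add s2))).congr
    fun x z hz => ?_
  rw [hW x z hz, dec1 h Q sΓ hP hΦ x z]

include hκ hr hW₀

/-- **The true weight minus the model.** -/
theorem gdD : G.Gd 2 (ms e r t δ 1 1 (x3 2 1 0) (x3 0 0 0)) fun x z => W x z - W₀ x z := by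
  have hr' := h.S.rr
  obtain ⟨Cν, hν⟩ := hν
  obtain ⟨Cκ, hκ⟩ := hκ
  obtain ⟨Cr, hr⟩ := hr
  have nN : G.Nn (fN Φ l m) := fun x z _ => hΦ.p1 x _
  have nNρ : G.Nn fun x z => fN Φ l m x z * cs ρi x z := fun x z hz =>
    mul_nonneg (nN x z hz) (h.ρ0 x)
  have nEκ : G.Nn fun x z => fe0 l m x z * cs κ x z := fun x z hz =>
    mul_nonneg (fe0_nn h x z hz) (κ0 x)
  have br : ∀ x, ∀ z ∈ G.Z x, r x z ≤ |Cr| * δ x z := fun x z hz =>
    (hr x z hz).trans (mul_le_mul_of_nonneg_right (le_abs_self _) (sz.d0 x z hz))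
  have bκ : ∀ x, ∀ z ∈ G.Z x, κ x ≤ |Cκ| * δ x z := fun x z hz =>
    (hκ x z hz).trans (mul_le_mul_of_nonneg_right (le_abs_self _) (sz.d0 x z hz))
  have bN : ∀ x, ∀ z ∈ G.Z x, fN Φ l m x z ≤ |Cν| * |Cr| * (δ x z * e x z) := fun x z hz => by
    have e0 := (sz.e0 x z hz).le
    have r0 := (sz.r0 x z hz).le
    have h0 : 0 ≤ e x z * r x z * t x z := mul_nonneg (mul_nonneg e0 r0) (r0.trans (sz.rt x z hz))
    have h1 := (hν x z hz).trans (mul_le_mul_of_nonneg_right (le_abs_self Cν) h0)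
    have h2 : e x z * r x z * t x z ≤ e x z * r x z :=
      mul_le_of_le_one_right (mul_nonneg e0 r0) (sz.t1 x z hz)
    have h3 : e x z * r x z ≤ e x z * (|Cr| * δ x z) := mul_le_mul_of_nonneg_left (br x z hz) e0
    calc fN Φ l m x z ≤ |Cν| * (e x z * r x z * t x z) := h1
      _ ≤ |Cν| * (e x z * (|Cr| * δ x z)) :=
        mul_le_mul_of_nonneg_left (h2.trans h3) (abs_nonneg _)
      _ = |Cν| * |Cr| * (δ x z * e x z) := by ring
  -- the slope part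
  have c1 : G.Gd 2 (ms e r t δ 1 1 (x3 2 1 0) (x3 0 0 0))
      fun x z => Φ 0 x (fu l m x z) - Φ 0 x (fu0 l m x z) := by
    refine pg_toD hr' nNρ ((h.slope hΦ).gd.le (by norm_num)) fun j _ =>
      ⟨|Cν| * |Cr|, fun x z hz => ?_⟩
    have r0 := hr'.r0 x z hz
    have h1 : fN Φ l m x z * cs ρi x z ≤ |Cν| * |Cr| * (δ x z * e x z) :=
      (mul_le_of_le_one_right (nN x z hz) (h.ρ1 x)).trans (bN x z hz)
    match j with
    | 0 =>
      simp only [O2, x3, ms, mn, pow_zero, pow_one, mul_one]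
      rw [← mul_assoc]
      exact mul_le_mul_of_nonneg_right h1 (pow_nonneg r0 2)
    | 1 =>
      simp only [O2, x3, ms, mn, pow_zero, pow_one, mul_one]
      rw [← mul_assoc]
      exact mul_le_mul_of_nonneg_right h1 r0
    | j + 2 =>
      simp only [O2, x3, ms, mn, pow_zero, pow_one, mul_one]
      exact h1
  -- the part of fourth order
  have c2 : G.Gd 2 (ms e r t δ 1 1 (x3 2 1 0) (x3 0 0 0)) fun x z => fe0 l m x z *
      ((fev l m x z - 1) * P 0 (fρ Γ qt x z) + (P 0 (fρ Γ qt x z) - 1 / 2 * fρ Γ qt x z)) := by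
    refine pg_toD hr' (fe0_nn h) ((gc_II h Q κ0 κ1 sΓ hΓ hP).gd.le (by norm_num)) fun j hj =>
      ⟨|Cr|, fun x z hz => ?_⟩
    have r0 := hr'.r0 x z hz
    have r1 := hr'.r1 x z hz
    have e0 := (sz.e0 x z hz).le
    rw [← he x z hz]
    have key : ∀ k b : ℕ, b + 1 ≤ k → e x z * r x z ^ k ≤ |Cr| * (δ x z ^ 1 * e x z ^ 1 * r x z ^ b
        * t x z ^ 0) := by
      intro k b hk
      have h1 : r x z ^ k ≤ r x z ^ (b + 1) := pow_le_pow_of_le_one r0 r1 hk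
      have h2 : r x z ^ (b + 1) ≤ r x z ^ b * (|Cr| * δ x z) := by
        rw [pow_succ]
        exact mul_le_mul_of_nonneg_left (br x z hz) (pow_nonneg r0 b)
      calc e x z * r x z ^ k ≤ e x z * (r x z ^ b * (|Cr| * δ x z)) :=
            mul_le_mul_of_nonneg_left (h1.trans h2) e0
        _ = |Cr| * (δ x z ^ 1 * e x z ^ 1 * r x z ^ b * t x z ^ 0) := by ring
    match j with
    | 0 => exact key 4 2 (by norm_num)
    | 1 => exact key 3 1 (by norm_num)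
    | 2 => exact key 2 0 (by norm_num)
    | 3 => exact key 1 0 (by norm_num)
    | j + 4 => exact absurd hj (by omega)
  -- the metric part
  have c3 : G.Gd 2 (ms e r t δ 1 1 (x3 2 1 0) (x3 0 0 0)) fun x z =>
      fe0 l m x z * (1 / 2 * fk Γ qt x z) := by
    refine pg_toD hr' nEκ ((gc_III h Q κ0 κ1 sΓ hΓ).gd.le (by norm_num)) fun j hj =>
      ⟨|Cκ|, fun x z hz => ?_⟩
    have r0 := hr'.r0 x z hz
    have e0 := (sz.e0 x z hz).le
    rw [← he x z hz]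
    have h1 : e x z * cs κ x z ≤ |Cκ| * (δ x z * e x z) := by
      calc e x z * cs κ x z ≤ e x z * (|Cκ| * δ x z) := mul_le_mul_of_nonneg_left (bκ x z hz) e0
        _ = |Cκ| * (δ x z * e x z) := by ring
    match j with
    | 0 =>
      simp only [O2, x3, ms, mn, pow_zero, pow_one, mul_one]
      rw [← mul_assoc]
      exact mul_le_mul_of_nonneg_right h1 (pow_nonneg r0 2)
    | 1 =>
      simp only [O2, x3, ms, mn, pow_zero, pow_one, mul_one]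
      rw [← mul_assoc]
      exact mul_le_mul_of_nonneg_right h1 r0
    | j + 2 =>
      simp only [O2, x3, ms, mn, pow_zero, pow_one, mul_one]
      exact h1
  have sp := sm_P0 h Q sΓ hP
  have s1 : G.Sm fun x z => Φ 0 x (fu l m x z) - Φ 0 x (fu0 l m x z) :=
    (hΦ.fd.sm_comp h.su 0).sub (hΦ.fd.sm_comp h.su0 0)
  have s2 : G.Sm fun x z => fe0 l m x z *
      ((fev l m x z - 1) * P 0 (fρ Γ qt x z) + (P 0 (fρ Γ qt x z) - 1 / 2 * fρ Γ qt x z)) :=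
    h.sm_e0.mul (((h.sm_ev.sub (Ge.Sm.const fun _ => 1)).mul sp).add
      (sp.sub ((Ge.Sm.const fun _ => 1 / 2).mul (sm_ρ h Q sΓ))))
  have s3 : G.Sm fun x z => fe0 l m x z * (1 / 2 * fk Γ qt x z) :=
    h.sm_e0.mul ((Ge.Sm.const fun _ => 1 / 2).mul (sm_fk h.S Q sΓ))
  refine (gd_const (fun x => c₁ x - c₀ x) (c1.add (c2.add c3 s2 s3) s1 (s2.add s3))
    (s1.add (s2.add s3))).congr fun x z hz => ?_
  rw [hW x z hz, hW₀ x z hz, ← dec2 h Q sΓ hP hΦ x z, he x z hz]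
  ring

end

end Vale.Agent.P088.R2.H968.B
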