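import Vale.Agent.P088.R2.H464.B.Fd
import Mathlib.Analysis.Calculus.MeanValue
import Mathlib.Analysis.Calculus.ContDiff.Bounds
import Mathlib.Analysis.Calculus.Deriv.Comp

/-!
# P088: the graded classes with profiles `A r^(B j)`: products, compositions, differences
-/

open Set Filter
open scoped ContDiff Topology

noncomputable section

set_option linter.unusedSectionVars false

namespace Vale.Agent.P088.R2.H968.B

open Vale.Agent.P088.R2.H464.B

variable {α ι E : Type*} [NormedAddCommGroup E] [NormedSpace ℝ E] {G : Ge α ι E}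

/-- The profile `A r^(B j)`. -/
def pg (A r : α → E → ℝ) (B : ℕ → ℕ) : ℕ → α → E → ℝ := fun j x z => A x z * r x z ^ B j

/-- `0 ≤ r ≤ 1`. -/
structure Rr (G : Ge α ι E) (r : α → E → ℝ) : Prop where
  r0 : ∀ x, ∀ z ∈ G.Z x, 0 ≤ r x z
  r1 : ∀ x, ∀ z ∈ G.Z x, r x z ≤ 1

variable {r A A' A'' f g u v w : α → E → ℝ} {B B' B₁ B₂ Ba Bb : ℕ → ℕ} {K : ℕ}

theorem pg_nn (hr : Rr G r) (hA : G.Nn A) (B : ℕ → ℕ) (j : ℕ) : G.Nn (pg A r B j) :=
  fun x z hz => mul_nonneg (hA x z hz) (pow_nonneg (hr.r0 x z hz) _)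

theorem pg_mono (hr : Rr G r) (hA : G.Nn A) (hf : G.Gc K (pg A r B) f)
    (h : ∃ C, ∀ x, ∀ z ∈ G.Z x, A x z ≤ C * A' x z) (hB : ∀ j ≤ K, B' j ≤ B j) :
    G.Gc K (pg A' r B') f := by
  refine hf.mono (fun j _ => pg_nn hr hA B j) fun j hj => ?_
  obtain ⟨C, hC⟩ := h
  refine ⟨C, fun x z hz => ?_⟩
  have h1 := hC x z hz
  have h2 := hA x z hz
  have r0 := hr.r0 x z hz
  have h3 : r x z ^ B j ≤ r x z ^ B' j := pow_le_pow_of_le_one r0 (hr.r1 x z hz) (hB j hj)
  unfold pg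
  calc A x z * r x z ^ B j ≤ A x z * r x z ^ B' j := mul_le_mul_of_nonneg_left h3 h2
    _ ≤ C * A' x z * r x z ^ B' j := mul_le_mul_of_nonneg_right h1 (pow_nonneg r0 _)
    _ = C * (A' x z * r x z ^ B' j) := by ring

theorem pg_monoB (hr : Rr G r) (hA : G.Nn A) (hf : G.Gc K (pg A r B) f)
    (hB : ∀ j ≤ K, B' j ≤ B j) : G.Gc K (pg A r B') f :=
  pg_mono hr hA hf ⟨1, fun x z _ => by rw [one_mul]⟩ hB

/-- Comparison with an arbitrary profile. -/
theorem pg_to {p : ℕ → α → E → ℝ} (hr : Rr G r) (hA : G.Nn A) (hf : G.Gc K (pg A r B) f)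
    (h : ∀ j ≤ K, ∃ C, ∀ x, ∀ z ∈ G.Z x, A x z * r x z ^ B j ≤ C * p j x z) : G.Gc K p f :=
  hf.mono (fun j _ => pg_nn hr hA B j) h

theorem pg_mul (hr : Rr G r) (hA : G.Nn A) (hA' : G.Nn A') (hf : G.Gc K (pg A r B₁) f)
    (hg : G.Gc K (pg A' r B₂) g) (sf : G.Sm f) (sg : G.Sm g)
    (hB : ∀ j ≤ K, ∀ i ≤ j, B j ≤ B₁ i + B₂ (j - i)) :
    G.Gc K (pg (fun x z => A x z * A' x z) r B) fun x z => f x z * g x z := by
  refine (hf.mul hg (fun j _ => pg_nn hr hA _ j) (fun j _ => pg_nn hr hA' _ j) sf sg).mono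
    (cv_nn (fun j _ => pg_nn hr hA _ j) fun j _ => pg_nn hr hA' _ j) fun j hj => ⟨(j : ℝ) + 1,
      fun x z hz => ?_⟩
  have r0 := hr.r0 x z hz
  have a0 := hA x z hz
  have a1 := hA' x z hz
  unfold cv pg
  have h1 : ∀ i ∈ Finset.range (j + 1), A x z * r x z ^ B₁ i * (A' x z * r x z ^ B₂ (j - i)) ≤
      A x z * A' x z * r x z ^ B j := by
    intro i hi
    have h2 : r x z ^ B₁ i * r x z ^ B₂ (j - i) ≤ r x z ^ B j := by
      rw [← pow_add]
      exact pow_le_pow_of_le_one r0 (hr.r1 x z hz) (hB j hj i (Finset.mem_range_succ_iff.1 hi))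
    calc A x z * r x z ^ B₁ i * (A' x z * r x z ^ B₂ (j - i)) =
          A x z * A' x z * (r x z ^ B₁ i * r x z ^ B₂ (j - i)) := by ring
      _ ≤ A x z * A' x z * r x z ^ B j := mul_le_mul_of_nonneg_left h2 (mul_nonneg a0 a1)
  refine (Finset.sum_le_sum h1).trans (le_of_eq ?_)
  rw [Finset.sum_const, Finset.card_range, nsmul_eq_mul]
  push_cast
  ring

theorem pg_cmul (hr : Rr G r) (hA : G.Nn A) (hf : G.Gc K (pg A r B) f) (sf : G.Sm f) (c : ℝ) :
    G.Gc K (pg A r B) fun x z => c * f x z := hf.cmul sf (fun j _ => pg_nn hr hA _ j) c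

theorem pg_sub (hr : Rr G r) (hA : G.Nn A) (hf : G.Gc K (pg A r B) f) (hg : G.Gc K (pg A r B) g)
    (sf : G.Sm f) (sg : G.Sm g) : G.Gc K (pg A r B) fun x z => f x z - g x z :=
  hf.sub hg sf sg fun j _ => pg_nn hr hA _ j

/-- The constant `1` as a size. -/
def un : α → E → ℝ := fun _ _ => 1

theorem un_nn : G.Nn (un : α → E → ℝ) := fun _ _ _ => zero_le_one

theorem pg_un (A : α → E → ℝ) : (fun x z => A x z * (un : α → E → ℝ) x z) = A := by
  funext x z; simp [un]

theorem un_pg (A : α → E → ℝ) : (fun x z => (un : α → E → ℝ) x z * A x z) = A := by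
  funext x z; simp [un]

/-! ## Compositions -/

/-- The chain rule. -/
theorem da_comp {H H' : α → ℝ → ℝ} (dH : ∀ x t, HasDerivAt (H x) (H' x t) t) (sv : G.Sm v)
    (i : ι) (x : α) {z : E} (hz : z ∈ G.Z x) :
    G.da i (fun x z => H x (v x z)) x z = H' x (v x z) * G.da i v x z := by
  have h1 := (dH x (v x z)).comp_hasFDerivAt z (sv.at x hz).hasFDerivAt
  show fderiv ℝ (fun z => H x (v x z)) z _ = _
  have h2 : fderiv ℝ (fun z => H x (v x z)) z = H' x (v x z) • fderiv ℝ (v x) z := h1.fderiv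
  rw [h2]
  simp [Ge.da]

theorem db_comp {H H' : α → ℝ → ℝ} (dH : ∀ x t, HasDerivAt (H x) (H' x t) t) (sv : G.Sm v)
    (i : ι) (x : α) {z : E} (hz : z ∈ G.Z x) :
    G.db i (fun x z => H x (v x z)) x z = H' x (v x z) * G.db i v x z := by
  have h1 := (dH x (v x z)).comp_hasFDerivAt z (sv.at x hz).hasFDerivAt
  show fderiv ℝ (fun z => H x (v x z)) z _ = _
  have h2 : fderiv ℝ (fun z => H x (v x z)) z = H' x (v x z) • fderiv ℝ (v x) z := h1.fderiv
  rw [h2]
  simp [Ge.db]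

/-- A family of functions of one variable with its derivatives. -/
structure Fd1 (H : ℕ → α → ℝ → ℝ) : Prop where
  sm : ∀ m x, ContDiff ℝ ∞ (H m x)
  d : ∀ m x t, HasDerivAt (H m x) (H (m + 1) x t) t

theorem Fd1.sm_comp {H : ℕ → α → ℝ → ℝ} (hH : Fd1 H) (sv : G.Sm v) (m : ℕ) :
    G.Sm fun x z => H m x (v x z) := fun x => (hH.sm m x).comp_contDiffOn (sv x)

/-- **Compositions.** -/
theorem comp_gc {H : ℕ → α → ℝ → ℝ} (hH : Fd1 H) (hr : Rr G r) (hA : G.Nn A) (sv : G.Sm v)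
    {B : ℕ → ℕ → ℕ} (h0 : ∀ m, G.O (fun x z => A x z * r x z ^ B m 0) fun x z => H m x (v x z))
    (hca : ∀ m j i, i ≤ j → B m (j + 1) ≤ B (m + 1) i + Ba (j - i))
    (hcb : ∀ m j i, i ≤ j → B m j ≤ B (m + 1) i + Bb (j - i)) :
    ∀ K : ℕ, (∀ i, G.Gc K (pg un r Ba) (G.da i v)) → (∀ i, G.Gc K (pg un r Bb) (G.db i v)) →
      ∀ m, G.Gc (K + 1) (pg A r (B m)) fun x z => H m x (v x z) := by
  intro K
  induction K with
  | zero =>
    intro ha hb m
    refine ⟨h0 m, fun i => ?_, fun i => ?_⟩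
    · refine (pg_mono (B := fun j => B m (j + 1)) (A := fun x z => A x z * (un : α → E → ℝ) x z) hr
        (fun x z hz => mul_nonneg (hA x z hz) zero_le_one)
        (pg_mul (K := 0) (A := A) (B₁ := B (m + 1)) (B₂ := Ba) hr hA un_nn (h0 (m + 1)) (ha i)
          (hH.sm_comp sv (m + 1)) (sv.da i) fun j _ i hi => hca m j i hi)
        ⟨1, fun x z _ => by simp [un]⟩ fun j _ => le_rfl).congr fun x z hz => ?_
      exact da_comp (hH.d m) sv i x hz
    · refine (pg_mono (B := B m) (A := fun x z => A x z * (un : α → E → ℝ) x z) hr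
        (fun x z hz => mul_nonneg (hA x z hz) zero_le_one)
        (pg_mul (K := 0) (A := A) (B₁ := B (m + 1)) (B₂ := Bb) hr hA un_nn (h0 (m + 1)) (hb i)
          (hH.sm_comp sv (m + 1)) (sv.db i) fun j _ i hi => hcb m j i hi)
        ⟨1, fun x z _ => by simp [un]⟩ fun j _ => le_rfl).congr fun x z hz => ?_
      exact db_comp (hH.d m) sv i x hz
  | succ K ih =>
    intro ha hb m
    have h1 := ih (fun i => (ha i).mono_K) (fun i => (hb i).mono_K) (m + 1)
    refine ⟨h0 m, fun i => ?_, fun i => ?_⟩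
    · refine (pg_mono (B := fun j => B m (j + 1)) (A := fun x z => A x z * (un : α → E → ℝ) x z) hr
        (fun x z hz => mul_nonneg (hA x z hz) zero_le_one)
        (pg_mul (K := K + 1) (A := A) (B₁ := B (m + 1)) (B₂ := Ba) hr hA un_nn h1 (ha i)
          (hH.sm_comp sv (m + 1)) (sv.da i) fun j _ i hi => hca m j i hi)
        ⟨1, fun x z _ => by simp [un]⟩ fun j _ => le_rfl).congr fun x z hz => ?_
      exact da_comp (hH.d m) sv i x hz
    · refine (pg_mono (B := B m) (A := fun x z => A x z * (un : α → E → ℝ) x z) hr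
        (fun x z hz => mul_nonneg (hA x z hz) zero_le_one)
        (pg_mul (K := K + 1) (A := A) (B₁ := B (m + 1)) (B₂ := Bb) hr hA un_nn h1 (hb i)
          (hH.sm_comp sv (m + 1)) (sv.db i) fun j _ i hi => hcb m j i hi)
        ⟨1, fun x z _ => by simp [un]⟩ fun j _ => le_rfl).congr fun x z hz => ?_
      exact db_comp (hH.d m) sv i x hz

/-! ## The three basic profiles -/

/-- `(0, 1, 0, 0, …)`: even functions. -/
def E0 : ℕ → ℕ := x3 0 1 0

/-- `(1, 0, 0, …)`. -/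
def O1 : ℕ → ℕ := x3 1 0 0

/-- `(2, 1, 0, …)`. -/
def O2 : ℕ → ℕ := x3 2 1 0

/-- `(4, 3, 2, 1, 0, …)`. -/
def O4 : ℕ → ℕ := fun j => 4 - j

/-- `0`. -/
def Z0 : ℕ → ℕ := fun _ => 0

theorem E0_le (j : ℕ) : E0 j ≤ 1 := by
  match j with
  | 0 => exact Nat.zero_le _
  | 1 => exact le_rfl
  | _ + 2 => exact Nat.zero_le _

theorem E0_succ (j : ℕ) : E0 (j + 1) = O1 j := by
  match j with
  | 0 => rfl
  | 1 => rfl
  | _ + 2 => rfl

theorem O2_succ (j : ℕ) : O2 (j + 1) = O1 j := by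
  match j with
  | 0 => rfl
  | 1 => rfl
  | _ + 2 => rfl

theorem O1_eq (j : ℕ) : O1 j = 1 - j := by
  match j with
  | 0 => rfl
  | 1 => rfl
  | _ + 2 => simp [O1, x3]

theorem O2_eq (j : ℕ) : O2 j = 2 - j := by
  match j with
  | 0 => rfl
  | 1 => rfl
  | _ + 2 => simp [O2, x3]

theorem E0_O1 (j i : ℕ) (h : i ≤ j) : O1 j ≤ E0 i + O1 (j - i) := by
  match j, i with
  | 0, i => obtain rfl := Nat.le_zero.1 h; decide
  | j + 1, i => simp [O1_eq]

theorem E0_E0 (j i : ℕ) (h : i ≤ j) : E0 j ≤ E0 i + E0 (j - i) := by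
  match j, i with
  | 0, i => exact Nat.zero_le _
  | 1, 0 => decide
  | 1, 1 => decide
  | 1, i + 2 => omega
  | j + 2, i => exact Nat.zero_le _

theorem E0_O2 (j i : ℕ) (h : i ≤ j) : O2 j ≤ E0 i + O2 (j - i) := by
  match j, i with
  | 0, i => obtain rfl := Nat.le_zero.1 h; decide
  | 1, 0 => decide
  | 1, 1 => decide
  | 1, i + 2 => omega
  | j + 2, i => exact Nat.zero_le _

theorem O2_E0 (j i : ℕ) (h : i ≤ j) : O2 j ≤ O2 i + E0 (j - i) := by
  have := E0_O2 j (j - i) (Nat.sub_le _ _)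
  rw [Nat.sub_sub_self h] at this
  omega

theorem O1_E0 (j i : ℕ) (h : i ≤ j) : O1 j ≤ O1 i + E0 (j - i) := by
  have := E0_O1 j (j - i) (Nat.sub_le _ _)
  rw [Nat.sub_sub_self h] at this
  omega

theorem E0_O4 (j i : ℕ) (h : i ≤ j) : O4 j ≤ E0 i + O4 (j - i) := by
  unfold O4
  match i with
  | 0 => simp
  | 1 => simp [E0, x3]; omega
  | i + 2 => omega

theorem O2_O2 (j i : ℕ) (h : i ≤ j) : O4 j ≤ O2 i + O2 (j - i) := by
  rw [O2_eq, O2_eq]; unfold O4; omega

/-- **Compositions of bounded functions with even functions.** -/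
theorem comp_E0 {H : ℕ → α → ℝ → ℝ} (hH : Fd1 H) (hr : Rr G r) (hA : G.Nn A) (sv : G.Sm v)
    (h0 : ∀ m, G.O A fun x z => H m x (v x z)) {K : ℕ}
    (ha : ∀ i, G.Gc K (pg un r O1) (G.da i v)) (hb : ∀ i, G.Gc K (pg un r E0) (G.db i v)) (m : ℕ) :
    G.Gc (K + 1) (pg A r E0) fun x z => H m x (v x z) :=
  comp_gc (B := fun _ => E0) hH hr hA sv (fun m => by simpa [E0, x3] using h0 m) (fun m j i h => by
    rw [E0_succ]; exact E0_O1 j i h) (fun m j i h => E0_E0 j i h) K ha hb m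

theorem Fd1.shift {H : ℕ → α → ℝ → ℝ} (hH : Fd1 H) : Fd1 fun m => H (m + 1) :=
  ⟨fun m x => hH.sm (m + 1) x, fun m x t => hH.d (m + 1) x t⟩

variable [Fintype ι]

/-- **Differences `H(u) - H(w)`**, `w` of the size `1`, `u - w` of the size `k r²`. -/
theorem diff_O2 {H : ℕ → α → ℝ → ℝ} (hH : Fd1 H) (hr : Rr G r) {A k : α → E → ℝ} (hA : G.Nn A)
    (hk : G.Nn k) (su : G.Sm u) (sw : G.Sm w)
    (h0 : ∀ m, G.O A fun x z => H (m + 1) x (u x z))
    (h1 : ∀ m, G.O (fun x z => A x z * k x z * r x z ^ 2)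
      fun x z => H m x (u x z) - H m x (w x z)) :
    ∀ K : ℕ, (∀ i, G.Gc K (pg un r O1) (G.da i u)) → (∀ i, G.Gc K (pg un r E0) (G.db i u)) →
      (∀ i, G.Gc K (pg un r O1) (G.da i w)) → (∀ i, G.Gc K (pg un r E0) (G.db i w)) →
      (∀ i, G.Gc K (pg k r O1) (G.da i fun x z => u x z - w x z)) →
      (∀ i, G.Gc K (pg k r O2) (G.db i fun x z => u x z - w x z)) →
      ∀ m, G.Gc (K + 1) (pg (fun x z => A x z * k x z) r O2)
        fun x z => H m x (u x z) - H m x (w x z) := by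
  have hAk : G.Nn fun x z => A x z * k x z := fun x z hz => mul_nonneg (hA x z hz) (hk x z hz)
  have sD : ∀ m, G.Sm fun x z => H m x (u x z) - H m x (w x z) := fun m =>
    (hH.sm_comp su m).sub (hH.sm_comp sw m)
  have ea : ∀ (m : ℕ) (i : ι) (x : α) (z : E), z ∈ G.Z x →
      G.da i (fun x z => H m x (u x z) - H m x (w x z)) x z =
      (H (m + 1) x (u x z) - H (m + 1) x (w x z)) * G.da i w x z +
        H (m + 1) x (u x z) * G.da i (fun x z => u x z - w x z) x z := by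
    intro m i x z hz
    rw [da_sub (hH.sm_comp su m) (hH.sm_comp sw m) i x hz, da_comp (hH.d m) su i x hz,
      da_comp (hH.d m) sw i x hz, da_sub su sw i x hz]
    ring
  have eb : ∀ (m : ℕ) (i : ι) (x : α) (z : E), z ∈ G.Z x →
      G.db i (fun x z => H m x (u x z) - H m x (w x z)) x z =
      (H (m + 1) x (u x z) - H (m + 1) x (w x z)) * G.db i w x z +
        H (m + 1) x (u x z) * G.db i (fun x z => u x z - w x z) x z := by
    intro m i x z hz
    rw [db_sub (hH.sm_comp su m) (hH.sm_comp sw m) i x hz, db_comp (hH.d m) su i x hz,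
      db_comp (hH.d m) sw i x hz, db_sub su sw i x hz]
    ring
  -- the step
  have step : ∀ (K m : ℕ), G.Gc K (pg (fun x z => A x z * k x z) r O2)
      (fun x z => H (m + 1) x (u x z) - H (m + 1) x (w x z)) →
      G.Gc K (pg A r E0) (fun x z => H (m + 1) x (u x z)) →
      (∀ i, G.Gc K (pg un r O1) (G.da i w)) → (∀ i, G.Gc K (pg un r E0) (G.db i w)) →
      (∀ i, G.Gc K (pg k r O1) (G.da i fun x z => u x z - w x z)) →
      (∀ i, G.Gc K (pg k r O2) (G.db i fun x z => u x z - w x z)) →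
      G.Gc (K + 1) (pg (fun x z => A x z * k x z) r O2)
        fun x z => H m x (u x z) - H m x (w x z) := by
    intro K m hD hHu haw hbw hav hbv
    refine ⟨?_, fun i => ?_, fun i => ?_⟩
    · exact h1 m
    · have c1 := pg_mul (B := O1) hr hAk un_nn hD (haw i) (sD (m + 1)) (sw.da i)
        fun j _ i hi => by rw [O2_eq, O1_eq, O1_eq]; omega
      have c2 := pg_mul (B := O1) hr hA hk hHu (hav i) (hH.sm_comp su (m + 1))
        ((su.sub sw).da i) fun j _ i hi => E0_O1 j i hi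
      have c1' := pg_mono (A' := fun x z => A x z * k x z) (B' := O1) hr
        (fun x z hz => mul_nonneg (hAk x z hz) zero_le_one) c1 ⟨1, fun x z _ => by simp [un]⟩
        fun j _ => le_rfl
      have c3 := c1'.add c2 ((sD (m + 1)).mul (sw.da i))
        ((hH.sm_comp su (m + 1)).mul ((su.sub sw).da i))
      have c4 := c3.congr fun x z hz => ea m i x z hz
      exact pg_to hr hAk c4 fun j _ => ⟨1, fun x z _ => by simp only [pg, O2_succ, one_mul]; exact le_rfl⟩
    · have c1 := pg_mul (B := O2) hr hAk un_nn hD (hbw i) (sD (m + 1)) (sw.db i)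
        fun j _ i hi => O2_E0 j i hi
      have c2 := pg_mul (B := O2) hr hA hk hHu (hbv i) (hH.sm_comp su (m + 1))
        ((su.sub sw).db i) fun j _ i hi => E0_O2 j i hi
      have c1' := pg_mono (A' := fun x z => A x z * k x z) (B' := O2) hr
        (fun x z hz => mul_nonneg (hAk x z hz) zero_le_one) c1 ⟨1, fun x z _ => by simp [un]⟩
        fun j _ => le_rfl
      have c3 := c1'.add c2 ((sD (m + 1)).mul (sw.db i))
        ((hH.sm_comp su (m + 1)).mul ((su.sub sw).db i))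
      exact c3.congr fun x z hz => eb m i x z hz
  intro K
  induction K with
  | zero =>
    intro hau hbu haw hbw hav hbv m
    refine step 0 m ?_ ?_ haw hbw hav hbv
    · exact h1 (m + 1)
    · exact (h0 m).mono hA (A := 1) fun x z _ => by simp [pg, E0, x3]
  | succ K ih =>
    intro hau hbu haw hbw hav hbv m
    exact step (K + 1) m (ih (fun i => (hau i).mono_K) (fun i => (hbu i).mono_K)
      (fun i => (haw i).mono_K) (fun i => (hbw i).mono_K) (fun i => (hav i).mono_K)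
      (fun i => (hbv i).mono_K) (m + 1))
      (comp_E0 hH.shift hr hA su h0 (fun i => (hau i).mono_K) (fun i => (hbu i).mono_K) m)
      haw hbw hav hbv

/-! ## Functions of `s = r²` vanishing to the second order -/

/-- The profiles of the derivatives. -/
def B4 : ℕ → ℕ → ℕ
  | 0 => O4
  | 1 => O2
  | _ + 2 => Z0

/-- **`H(v)`, `H(s) = O(s²)`, `v` of the size `r²`.** -/
theorem comp_O4 {H : ℕ → α → ℝ → ℝ} (hH : Fd1 H) (hr : Rr G r) (sv : G.Sm v)
    (h0 : ∀ m, G.O (fun x z => r x z ^ B4 m 0) fun x z => H m x (v x z)) {K : ℕ}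
    (ha : ∀ i, G.Gc K (pg un r O1) (G.da i v)) (hb : ∀ i, G.Gc K (pg un r O2) (G.db i v)) (m : ℕ) :
    G.Gc (K + 1) (pg un r (B4 m)) fun x z => H m x (v x z) := by
  refine comp_gc (B := B4) hH hr un_nn sv (fun m => by simpa [un] using h0 m) ?_ ?_ K ha hb m
  · intro m j i h
    match m with
    | 0 =>
      show O4 (j + 1) ≤ O2 i + O1 (j - i)
      rw [O2_eq, O1_eq]; unfold O4; omega
    | 1 =>
      show O2 (j + 1) ≤ 0 + O1 (j - i)
      rw [O2_eq, O1_eq]; omega
    | m + 2 => exact Nat.zero_le _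
  · intro m j i h
    match m with
    | 0 =>
      show O4 j ≤ O2 i + O2 (j - i)
      exact O2_O2 j i h
    | 1 =>
      show O2 j ≤ 0 + O2 (j - i)
      rw [O2_eq, O2_eq]; omega
    | m + 2 => exact Nat.zero_le _

end Vale.Agent.P088.R2.H968.B
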